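import Mathlib
import Crest.Agent.Helper19.Orthant

/-!
# Class preservation for the exponential averaging operator (helper66, for S0423)

`Crest.Agent.Helper19.K b f y = ∫ s in Ioi 0, f (y + b * s) * exp (-s)`.
We show that `K b` preserves: bounds, monotonicity, the four-point (log-concavity) inequality,
and we compute how it shifts the "mean" `∫ (F - H)`.
-/

namespace Crest.Agent.Helper66

open MeasureTheory Set Crest.Agent.Helper19

/-- integrability of the integrand of `K` for bounded measurable `f`. -/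
theorem K_integrand_integrable (b : ℝ) (f : ℝ → ℝ) (hf : Measurable f) (M : ℝ)
    (hM : ∀ y, |f y| ≤ M) (y : ℝ) :
    IntegrableOn (fun s : ℝ => f (y + b * s) * Real.exp (-s)) (Set.Ioi 0) := by
  have h1 : Integrable (fun s : ℝ => Real.exp (-s)) halfLine := integrableOn_exp_neg_Ioi (0 : ℝ)
  have hmeas : Measurable (fun s : ℝ => f (y + b * s)) := hf.comp (by fun_prop)
  exact h1.bdd_mul (c := M) hmeas.aestronglyMeasurable
    (Filter.Eventually.of_forall fun s => by simpa [Real.norm_eq_abs] using hM _)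

theorem K_zero_left (f : ℝ → ℝ) : K 0 f = f := by
  funext y
  unfold K
  simp only [zero_mul, add_zero]
  rw [integral_const_mul, integral_exp_neg_Ioi_zero, mul_one]

theorem K_mono (b : ℝ) (f g : ℝ → ℝ) (hf : Measurable f) (hg : Measurable g) (M : ℝ)
    (hfM : ∀ y, |f y| ≤ M) (hgM : ∀ y, |g y| ≤ M) (hfg : ∀ y, f y ≤ g y) (y : ℝ) :
    K b f y ≤ K b g y := by
  unfold K
  refine setIntegral_mono (K_integrand_integrable b f hf M hfM y)
    (K_integrand_integrable b g hg M hgM y) (fun s => ?_)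
  exact mul_le_mul_of_nonneg_right (hfg _) (Real.exp_pos _).le

theorem K_nonneg (b : ℝ) (f : ℝ → ℝ) (hf0 : ∀ y, 0 ≤ f y) (y : ℝ) : 0 ≤ K b f y := by
  unfold K
  exact setIntegral_nonneg measurableSet_Ioi (fun s _ => mul_nonneg (hf0 _) (Real.exp_pos _).le)

theorem K_le_one (b : ℝ) (f : ℝ → ℝ) (hf : Measurable f) (hf0 : ∀ y, 0 ≤ f y)
    (hf1 : ∀ y, f y ≤ 1) (y : ℝ) : K b f y ≤ 1 := by
  have h := K_abs_le b f 1 (fun y => by rw [abs_of_nonneg (hf0 y)]; exact hf1 y) y
  exact (le_abs_self _).trans h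

theorem K_monotone (b : ℝ) (f : ℝ → ℝ) (hf : Measurable f) (M : ℝ) (hM : ∀ y, |f y| ≤ M)
    (hmono : Monotone f) : Monotone (K b f) := by
  intro x y hxy
  unfold K
  refine setIntegral_mono (K_integrand_integrable b f hf M hM x)
    (K_integrand_integrable b f hf M hM y) (fun s => ?_)
  exact mul_le_mul_of_nonneg_right (hmono (by linarith)) (Real.exp_pos _).le

/-- translation commutes with `K`. -/
theorem K_translate (b : ℝ) (f : ℝ → ℝ) (t y : ℝ) :
    K b (fun z => f (z + t)) y = K b f (y + t) := by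
  unfold K
  refine integral_congr_ae (Filter.Eventually.of_forall fun s => ?_)
  simp only
  congr 2
  ring

/-- reflection conjugates `K b` to `K (-b)`. -/
theorem K_reflect (b : ℝ) (f : ℝ → ℝ) (y : ℝ) :
    K b (fun z => f (-z)) y = K (-b) f (-y) := by
  unfold K
  refine integral_congr_ae (Filter.Eventually.of_forall fun s => ?_)
  simp only
  congr 2
  ring


/-- shifting a half-line integral. -/
theorem setIntegral_Ioi_shift (g : ℝ → ℝ) (t : ℝ) :
    ∫ s in Set.Ioi t, g s = ∫ s in Set.Ioi (0 : ℝ), g (s + t) := by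
  rw [← integral_indicator measurableSet_Ioi, ← integral_indicator measurableSet_Ioi]
  rw [← integral_add_right_eq_self (fun s => Set.indicator (Set.Ioi t) g s) t]
  refine integral_congr_ae (Filter.Eventually.of_forall fun s => ?_)
  simp only [Set.indicator, Set.mem_Ioi]
  by_cases hs : 0 < s
  · rw [if_pos hs, if_pos (by linarith)]
  · rw [if_neg hs, if_neg (by linarith)]

/-- **Splitting identity** (memorylessness): for `0 ≤ t`,
`K b f x = ∫_{(0,t]} f (x + b s) e^{-s} ds + e^{-t} K b f (x + b t)`. -/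
theorem K_split (b : ℝ) (f : ℝ → ℝ) (hf : Measurable f) (M : ℝ) (hM : ∀ y, |f y| ≤ M)
    (x t : ℝ) (ht : 0 ≤ t) :
    K b f x = (∫ s in Set.Ioc 0 t, f (x + b * s) * Real.exp (-s))
      + Real.exp (-t) * K b f (x + b * t) := by
  have hint := K_integrand_integrable b f hf M hM x
  have hunion : Set.Ioi (0 : ℝ) = Set.Ioc 0 t ∪ Set.Ioi t := (Set.Ioc_union_Ioi_eq_Ioi ht).symm
  have hdisj : Disjoint (Set.Ioc 0 t) (Set.Ioi t) := Set.Ioc_disjoint_Ioi le_rfl
  have h1 : K b f x = (∫ s in Set.Ioc 0 t, f (x + b * s) * Real.exp (-s))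
      + ∫ s in Set.Ioi t, f (x + b * s) * Real.exp (-s) := by
    unfold K
    conv_lhs => rw [hunion]
    exact setIntegral_union hdisj measurableSet_Ioi
      (hint.mono_set (by rw [hunion]; exact Set.subset_union_left))
      (hint.mono_set (by rw [hunion]; exact Set.subset_union_right))
  rw [h1]
  congr 1
  rw [setIntegral_Ioi_shift]
  unfold K
  rw [← integral_const_mul]
  refine integral_congr_ae (Filter.Eventually.of_forall fun s => ?_)
  simp only
  rw [show x + b * (s + t) = x + b * t + b * s by ring, show -(s + t) = -t + -s by ring,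
    Real.exp_add]
  ring

/-- The four-point (log-concavity) inequality. -/
def FourPoint (f : ℝ → ℝ) : Prop :=
  ∀ x y h : ℝ, x ≤ y → 0 ≤ h → f x * f (y + h) ≤ f (x + h) * f y

theorem FourPoint.reflect {f : ℝ → ℝ} (hf : FourPoint f) : FourPoint (fun z => f (-z)) := by
  intro x y h hxy hh
  have := hf (-y - h) (-x - h) h (by linarith) hh
  simp only
  rw [show -(y + h) = -y - h by ring, show -(x + h) = -x - h by ring]
  rw [show -x - h + h = -x by ring, show -y - h + h = -y by ring] at this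
  linarith [this]

/-- `K b` preserves the four-point inequality, case `0 < b`. -/
theorem FourPoint.Kop_pos {f : ℝ → ℝ} (hfp : FourPoint f) (hf : Measurable f)
    (M : ℝ) (hM : ∀ y, |f y| ≤ M) {b : ℝ} (hb : 0 < b) : FourPoint (K b f) := by
  intro x y h hxy hh
  set t : ℝ := h / b with ht_def
  have ht : 0 ≤ t := div_nonneg hh hb.le
  have hbt : b * t = h := by rw [ht_def]; field_simp
  have hx := K_split b f hf M hM x t ht
  have hy := K_split b f hf M hM y t ht
  rw [hbt] at hx hy
  set Ax := ∫ s in Set.Ioc 0 t, f (x + b * s) * Real.exp (-s) with hAx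
  set Ay := ∫ s in Set.Ioc 0 t, f (y + b * s) * Real.exp (-s) with hAy
  -- key: Ax * K (y+h) ≤ K (x+h) * Ay
  have key : Ax * K b f (y + h) ≤ K b f (x + h) * Ay := by
    rw [hAx, hAy, ← integral_mul_const, ← integral_const_mul]
    have hintx : IntegrableOn (fun s : ℝ => f (x + b * s) * Real.exp (-s)) (Set.Ioc 0 t) :=
      (K_integrand_integrable b f hf M hM x).mono_set Set.Ioc_subset_Ioi_self
    have hinty : IntegrableOn (fun s : ℝ => f (y + b * s) * Real.exp (-s)) (Set.Ioc 0 t) :=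
      (K_integrand_integrable b f hf M hM y).mono_set Set.Ioc_subset_Ioi_self
    refine setIntegral_mono_on (hintx.mul_const _) (hinty.const_mul _) measurableSet_Ioc
      (fun s hs => ?_)
    -- pointwise in s ∈ (0, t]
    have hs0 : 0 < s := hs.1
    have hst : s ≤ t := hs.2
    have hbs : b * s ≤ h := by rw [← hbt]; exact mul_le_mul_of_nonneg_left hst hb.le
    rw [mul_comm (K b f (x + h)), mul_assoc, mul_assoc, mul_comm (Real.exp (-s)) (K b f (y + h)),
      mul_comm (Real.exp (-s)) (K b f (x + h)), ← mul_assoc, ← mul_assoc]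
    refine mul_le_mul_of_nonneg_right ?_ (Real.exp_pos _).le
    unfold K
    rw [← integral_const_mul, ← integral_const_mul]
    refine setIntegral_mono_on ((K_integrand_integrable b f hf M hM (y + h)).const_mul _)
      ((K_integrand_integrable b f hf M hM (x + h)).const_mul _) measurableSet_Ioi
      (fun s' hs' => ?_)
    have hs'0 : 0 < s' := hs'
    have h4 := hfp (x + b * s) (y + b * s) (h + b * s' - b * s) (by linarith)
      (by nlinarith [mul_pos hb hs'0])
    rw [show y + b * s + (h + b * s' - b * s) = y + h + b * s' by ring,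
      show x + b * s + (h + b * s' - b * s) = x + h + b * s' by ring] at h4
    rw [← mul_assoc, ← mul_assoc]
    exact mul_le_mul_of_nonneg_right (by linarith [h4]) (Real.exp_pos _).le
  rw [hx, hy]
  nlinarith [key, Real.exp_pos (-t)]


/-- `K b` preserves the four-point inequality (any real `b`). -/
theorem FourPoint.Kop {f : ℝ → ℝ} (hfp : FourPoint f) (hf : Measurable f)
    (M : ℝ) (hM : ∀ y, |f y| ≤ M) (b : ℝ) : FourPoint (K b f) := by
  rcases lt_trichotomy b 0 with hb | hb | hb
  · -- reflect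
    have hrefl : K b f = fun y => K (-b) (fun z => f (-z)) (-y) := by
      funext y
      have := K_reflect b (fun z => f (-z)) y
      simp only [neg_neg] at this
      exact this
    rw [hrefl]
    exact (FourPoint.Kop_pos hfp.reflect (hf.comp measurable_neg) M (fun y => hM _)
      (neg_pos.mpr hb)).reflect
  · rw [hb, K_zero_left]; exact hfp
  · exact FourPoint.Kop_pos hfp hf M hM hb

/-- the base function: indicator of the open positive half-line. -/
noncomputable def H : ℝ → ℝ := Set.indicator (Set.Ioi (0 : ℝ)) 1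

theorem H_apply (y : ℝ) : H y = if 0 < y then 1 else 0 := by
  unfold H
  simp [Set.indicator]

theorem H_measurable : Measurable H := by
  unfold H
  exact measurable_one.indicator measurableSet_Ioi

theorem H_nonneg (y : ℝ) : 0 ≤ H y := by
  rw [H_apply]; split_ifs <;> norm_num

theorem H_le_one (y : ℝ) : H y ≤ 1 := by
  rw [H_apply]; split_ifs <;> norm_num

theorem H_abs_le (y : ℝ) : |H y| ≤ 1 := by
  rw [abs_of_nonneg (H_nonneg y)]; exact H_le_one y

theorem H_monotone : Monotone H := by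
  intro x y hxy
  rw [H_apply, H_apply]
  by_cases hx : 0 < x
  · rw [if_pos hx, if_pos (lt_of_lt_of_le hx hxy)]
  · rw [if_neg hx]; split_ifs <;> norm_num

theorem H_fourPoint : FourPoint H := by
  intro x y h hxy hh
  rw [H_apply, H_apply, H_apply, H_apply]
  by_cases hx : 0 < x
  · have hy : 0 < y := lt_of_lt_of_le hx hxy
    rw [if_pos hx, if_pos hy, if_pos (by linarith), if_pos (by linarith)]
  · rw [if_neg hx]
    split_ifs <;> norm_num


/-! ### Lipschitz continuity of `K b f` for `b ≠ 0` -/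

theorem K_sub_split_bound (b : ℝ) (f : ℝ → ℝ) (hf : Measurable f) (M : ℝ) (hM : ∀ y, |f y| ≤ M)
    (x t : ℝ) (ht : 0 ≤ t) : |K b f x - K b f (x + b * t)| ≤ 2 * M * t := by
  have hM0 : 0 ≤ M := le_trans (abs_nonneg _) (hM 0)
  have hsplit := K_split b f hf M hM x t ht
  have hA : |∫ s in Set.Ioc 0 t, f (x + b * s) * Real.exp (-s)| ≤ M * t := by
    have h1 : ‖∫ s in Set.Ioc 0 t, f (x + b * s) * Real.exp (-s)‖
        ≤ M * (volume (Set.Ioc (0 : ℝ) t)).toReal := by
      refine norm_setIntegral_le_of_norm_le_const (by simp) (fun s hs => ?_)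
      rw [Real.norm_eq_abs, abs_mul, abs_of_pos (Real.exp_pos _)]
      have h2 : Real.exp (-s) ≤ 1 := by
        rw [Real.exp_le_one_iff]; linarith [hs.1]
      calc |f (x + b * s)| * Real.exp (-s) ≤ M * 1 :=
            mul_le_mul (hM _) h2 (Real.exp_pos _).le hM0
        _ = M := mul_one M
    rw [Real.volume_Ioc, sub_zero, ENNReal.toReal_ofReal ht] at h1
    simpa [Real.norm_eq_abs] using h1
  have hK : |K b f (x + b * t)| ≤ M := K_abs_le b f M hM _
  have hexp : 0 ≤ 1 - Real.exp (-t) ∧ 1 - Real.exp (-t) ≤ t := by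
    constructor
    · have : Real.exp (-t) ≤ 1 := by rw [Real.exp_le_one_iff]; linarith
      linarith
    · linarith [Real.add_one_le_exp (-t)]
  have hdiff : K b f x - K b f (x + b * t)
      = (∫ s in Set.Ioc 0 t, f (x + b * s) * Real.exp (-s))
        - (1 - Real.exp (-t)) * K b f (x + b * t) := by
    rw [hsplit]; ring
  rw [hdiff]
  have h3 : |(1 - Real.exp (-t)) * K b f (x + b * t)| ≤ t * M := by
    rw [abs_mul, abs_of_nonneg hexp.1]
    exact mul_le_mul hexp.2 hK (abs_nonneg _) ht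
  calc |(∫ s in Set.Ioc 0 t, f (x + b * s) * Real.exp (-s))
        - (1 - Real.exp (-t)) * K b f (x + b * t)|
      ≤ |∫ s in Set.Ioc 0 t, f (x + b * s) * Real.exp (-s)|
        + |(1 - Real.exp (-t)) * K b f (x + b * t)| := abs_sub _ _
    _ ≤ M * t + t * M := add_le_add hA h3
    _ = 2 * M * t := by ring

theorem K_dist_le (b : ℝ) (hb : b ≠ 0) (f : ℝ → ℝ) (hf : Measurable f) (M : ℝ)
    (hM : ∀ y, |f y| ≤ M) (x y : ℝ) : |K b f x - K b f y| ≤ 2 * M / |b| * |x - y| := by
  have hbpos : 0 < |b| := abs_pos.mpr hb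
  -- t = (y - x)/b; if t ≥ 0 use x, else use y
  by_cases ht : 0 ≤ (y - x) / b
  · have h := K_sub_split_bound b f hf M hM x ((y - x) / b) ht
    rw [show x + b * ((y - x) / b) = y by field_simp; ring] at h
    calc |K b f x - K b f y| ≤ 2 * M * ((y - x) / b) := h
      _ = 2 * M / |b| * |x - y| := by
        rw [← abs_of_nonneg ht, abs_div, abs_sub_comm y x]; ring
  · have ht := not_le.mp ht
    have ht' : 0 ≤ (x - y) / b := by
      have : (x - y) / b = -((y - x) / b) := by ring
      rw [this]; linarith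
    have h := K_sub_split_bound b f hf M hM y ((x - y) / b) ht'
    rw [show y + b * ((x - y) / b) = x by field_simp; ring] at h
    rw [abs_sub_comm]
    calc |K b f y - K b f x| ≤ 2 * M * ((x - y) / b) := h
      _ = 2 * M / |b| * |x - y| := by
        rw [← abs_of_nonneg ht', abs_div]; ring

theorem K_continuous (b : ℝ) (hb : b ≠ 0) (f : ℝ → ℝ) (hf : Measurable f) (M : ℝ)
    (hM : ∀ y, |f y| ≤ M) : Continuous (K b f) := by
  have hM0 : 0 ≤ M := le_trans (abs_nonneg _) (hM 0)
  have hc : 0 ≤ 2 * M / |b| := div_nonneg (by linarith) (abs_nonneg _)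
  have hlip : LipschitzWith ⟨2 * M / |b|, hc⟩ (K b f) := by
    refine LipschitzWith.of_dist_le_mul (fun x y => ?_)
    rw [Real.dist_eq, Real.dist_eq]
    exact K_dist_le b hb f hf M hM x y
  exact hlip.continuous

/-! ### Linearity -/

theorem K_const (b c : ℝ) (y : ℝ) : K b (fun _ => c) y = c := by
  unfold K
  rw [integral_const_mul, integral_exp_neg_Ioi_zero, mul_one]

theorem K_sub (b : ℝ) (f g : ℝ → ℝ) (hf : Measurable f) (hg : Measurable g) (M : ℝ)
    (hfM : ∀ y, |f y| ≤ M) (hgM : ∀ y, |g y| ≤ M) (y : ℝ) :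
    K b (fun z => f z - g z) y = K b f y - K b g y := by
  unfold K
  rw [← integral_sub (K_integrand_integrable b f hf M hfM y)
    (K_integrand_integrable b g hg M hgM y)]
  refine integral_congr_ae (Filter.Eventually.of_forall fun s => ?_)
  simp only
  ring

theorem K_one_sub (b : ℝ) (f : ℝ → ℝ) (hf : Measurable f) (M : ℝ)
    (hfM : ∀ y, |f y| ≤ M) (y : ℝ) :
    K b (fun z => 1 - f z) y = 1 - K b f y := by
  have h := K_sub b (fun _ => (1 : ℝ)) f measurable_const hf (max M 1)
    (fun y => by simp) (fun y => (hfM y).trans (le_max_left _ _)) y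
  rw [h, K_const]


/-! ### Iterates -/

theorem Kiter_nonneg (N : ℕ) (a : Fin N → ℝ) (f : ℝ → ℝ) (hf0 : ∀ y, 0 ≤ f y) (y : ℝ) :
    0 ≤ Kiter N a f y := by
  induction N generalizing y with
  | zero => exact hf0 y
  | succ N ih => exact K_nonneg _ _ (fun y => ih _ y) y

theorem Kiter_le_one (N : ℕ) (a : Fin N → ℝ) (f : ℝ → ℝ) (hf : Measurable f)
    (hf0 : ∀ y, 0 ≤ f y) (hf1 : ∀ y, f y ≤ 1) (y : ℝ) : Kiter N a f y ≤ 1 := by
  induction N generalizing y with
  | zero => exact hf1 y
  | succ N ih =>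
    exact K_le_one _ _ (Kiter_measurable N _ f hf) (fun y => Kiter_nonneg N _ f hf0 y)
      (fun y => ih _ y) y

theorem Kiter_monotone (N : ℕ) (a : Fin N → ℝ) (f : ℝ → ℝ) (hf : Measurable f) (M : ℝ)
    (hM : ∀ y, |f y| ≤ M) (hmono : Monotone f) : Monotone (Kiter N a f) := by
  induction N with
  | zero => exact hmono
  | succ N ih =>
    exact K_monotone _ _ (Kiter_measurable N _ f hf) M (fun y => Kiter_abs_le N _ f M hM y)
      (ih _)

theorem Kiter_fourPoint (N : ℕ) (a : Fin N → ℝ) (f : ℝ → ℝ) (hf : Measurable f) (M : ℝ)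
    (hM : ∀ y, |f y| ≤ M) (hfp : FourPoint f) : FourPoint (Kiter N a f) := by
  induction N with
  | zero => exact hfp
  | succ N ih =>
    exact FourPoint.Kop (ih _) (Kiter_measurable N _ f hf) M
      (fun y => Kiter_abs_le N _ f M hM y) _

theorem Kiter_continuous (N : ℕ) (a : Fin N → ℝ) (f : ℝ → ℝ) (hf : Measurable f) (M : ℝ)
    (hM : ∀ y, |f y| ≤ M) (ha : ∃ i, a i ≠ 0) : Continuous (Kiter N a f) := by
  induction N with
  | zero => exact absurd ha (by simp)
  | succ N ih =>
    rw [Kiter_succ]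
    by_cases h0 : a 0 = 0
    · rw [h0, K_zero_left]
      apply ih
      obtain ⟨i, hi⟩ := ha
      refine Fin.cases (fun hi => absurd h0 hi) (fun j hj => ⟨j, hj⟩) i hi
    · exact K_continuous _ h0 _ (Kiter_measurable N _ f hf) M
        (fun y => Kiter_abs_le N _ f M hM y)

theorem Kiter_one_sub (N : ℕ) (a : Fin N → ℝ) (f : ℝ → ℝ) (hf : Measurable f) (M : ℝ)
    (hM : ∀ y, |f y| ≤ M) (y : ℝ) :
    Kiter N a (fun z => 1 - f z) y = 1 - Kiter N a f y := by
  induction N generalizing y with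
  | zero => rfl
  | succ N ih =>
    rw [Kiter_succ, Kiter_succ]
    have : Kiter N (fun i => a i.succ) (fun z => 1 - f z)
        = fun z => 1 - Kiter N (fun i => a i.succ) f z := funext (fun z => ih _ z)
    rw [this]
    exact K_one_sub _ _ (Kiter_measurable N _ f hf) M (fun y => Kiter_abs_le N _ f M hM y) y

theorem Kiter_reflect (N : ℕ) (a : Fin N → ℝ) (f : ℝ → ℝ) (y : ℝ) :
    Kiter N a (fun z => f (-z)) y = Kiter N (fun i => -a i) f (-y) := by
  induction N generalizing y with
  | zero => rfl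
  | succ N ih =>
    rw [Kiter_succ, Kiter_succ]
    have : Kiter N (fun i => a i.succ) (fun z => f (-z))
        = fun z => Kiter N (fun i => -a i.succ) f (-z) := funext (fun z => ih _ z)
    rw [this]
    exact K_reflect (a 0) (Kiter N (fun i => -a i.succ) f) y


/-! ### Positivity -/

theorem K_lower (b : ℝ) (f : ℝ → ℝ) (hf : Measurable f) (hf0 : ∀ y, 0 ≤ f y) (M : ℝ)
    (hM : ∀ y, |f y| ≤ M) (hmono : Monotone f) (y : ℝ) :
    Real.exp (-1) * f (y - |b|) ≤ K b f y := by
  have hsplit := K_split b f hf M hM y 1 zero_le_one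
  have hK : 0 ≤ Real.exp (-1) * K b f (y + b * 1) :=
    mul_nonneg (Real.exp_pos _).le (K_nonneg b f hf0 _)
  have hint : IntegrableOn (fun s : ℝ => f (y + b * s) * Real.exp (-s)) (Set.Ioc 0 1) :=
    (K_integrand_integrable b f hf M hM y).mono_set Set.Ioc_subset_Ioi_self
  have hA : Real.exp (-1) * f (y - |b|) ≤ ∫ s in Set.Ioc (0 : ℝ) 1, f (y + b * s) * Real.exp (-s) := by
    have hconst : ∫ _s in Set.Ioc (0 : ℝ) 1, f (y - |b|) * Real.exp (-1)
        = Real.exp (-1) * f (y - |b|) := by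
      rw [setIntegral_const]
      simp [Measure.real, Real.volume_Ioc, mul_comm]
    rw [← hconst]
    refine setIntegral_mono_on (integrableOn_const (by simp)) hint measurableSet_Ioc
      (fun s hs => ?_)
    have h1 : y - |b| ≤ y + b * s := by
      have h2 : -|b| ≤ b * s := by
        have h3 : |b * s| ≤ |b| := by
          rw [abs_mul, abs_of_pos hs.1]
          exact mul_le_of_le_one_right (abs_nonneg _) hs.2
        linarith [neg_abs_le (b * s)]
      linarith
    have h4 : Real.exp (-1) ≤ Real.exp (-s) := Real.exp_le_exp.mpr (by linarith [hs.2])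
    exact mul_le_mul (hmono h1) h4 (Real.exp_pos _).le (hf0 _)
  linarith

theorem K_dom (b : ℝ) (f : ℝ → ℝ) (hf : Measurable f) (hf0 : ∀ y, 0 ≤ f y) (M : ℝ)
    (hM : ∀ y, |f y| ≤ M) (x t : ℝ) (ht : 0 ≤ t) :
    Real.exp (-t) * K b f (x + b * t) ≤ K b f x := by
  have hsplit := K_split b f hf M hM x t ht
  have hA : 0 ≤ ∫ s in Set.Ioc 0 t, f (x + b * s) * Real.exp (-s) :=
    setIntegral_nonneg measurableSet_Ioc (fun s _ => mul_nonneg (hf0 _) (Real.exp_pos _).le)
  linarith

theorem Kiter_exists_pos (N : ℕ) (a : Fin N → ℝ) (f : ℝ → ℝ) (hf : Measurable f)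
    (hf0 : ∀ y, 0 ≤ f y) (M : ℝ) (hM : ∀ y, |f y| ≤ M) (hmono : Monotone f)
    (hz : ∃ z, 0 < f z) : ∃ z, 0 < Kiter N a f z := by
  induction N with
  | zero => exact hz
  | succ N ih =>
    obtain ⟨z, hzpos⟩ := ih (fun i => a i.succ)
    refine ⟨z + |a 0|, ?_⟩
    rw [Kiter_succ]
    have h := K_lower (a 0) (Kiter N (fun i => a i.succ) f) (Kiter_measurable N _ f hf)
      (fun y => Kiter_nonneg N _ f hf0 y) M (fun y => Kiter_abs_le N _ f M hM y)
      (Kiter_monotone N _ f hf M hM hmono) (z + |a 0|)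
    rw [add_sub_cancel_right] at h
    exact lt_of_lt_of_le (mul_pos (Real.exp_pos _) hzpos) h

theorem Kiter_pos_of_monotone (N : ℕ) (a : Fin N → ℝ) (f : ℝ → ℝ) (hf : Measurable f)
    (hf0 : ∀ y, 0 ≤ f y) (M : ℝ) (hM : ∀ y, |f y| ≤ M) (hmono : Monotone f)
    (hz : ∃ z, 0 < f z) (ha : ∃ i, 0 < a i) (y : ℝ) : 0 < Kiter N a f y := by
  induction N generalizing y with
  | zero => exact absurd ha (by simp)
  | succ N ih =>
    rw [Kiter_succ]
    set G := Kiter N (fun i => a i.succ) f with hG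
    have hGm : Measurable G := Kiter_measurable N _ f hf
    have hG0 : ∀ y, 0 ≤ G y := fun y => Kiter_nonneg N _ f hf0 y
    have hGM : ∀ y, |G y| ≤ M := fun y => Kiter_abs_le N _ f M hM y
    have hGmono : Monotone G := Kiter_monotone N _ f hf M hM hmono
    by_cases htail : ∃ j : Fin N, 0 < a j.succ
    · have hpos := ih (fun i => a i.succ) htail (y - |a 0|)
      exact lt_of_lt_of_le (mul_pos (Real.exp_pos _) hpos)
        (K_lower (a 0) G hGm hG0 M hGM hGmono y)
    · have ha0 : 0 < a 0 := by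
        obtain ⟨i, hi⟩ := ha
        refine Fin.cases (fun hi => hi) (fun j hj => absurd ⟨j, hj⟩ htail) i hi
      obtain ⟨z, hzpos⟩ := Kiter_exists_pos N (fun i => a i.succ) f hf hf0 M hM hmono hz
      have h1 : 0 < K (a 0) G (z + |a 0|) := by
        have h := K_lower (a 0) G hGm hG0 M hGM hGmono (z + |a 0|)
        rw [add_sub_cancel_right] at h
        exact lt_of_lt_of_le (mul_pos (Real.exp_pos _) hzpos) h
      by_cases hy : z + |a 0| ≤ y
      · exact lt_of_lt_of_le h1 (K_monotone (a 0) G hGm M hGM hGmono hy)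
      · have hy := not_le.mp hy
        have ht : 0 ≤ (z + |a 0| - y) / a 0 := div_nonneg (by linarith) ha0.le
        have h := K_dom (a 0) G hGm hG0 M hGM y ((z + |a 0| - y) / a 0) ht
        rw [show y + a 0 * ((z + |a 0| - y) / a 0) = z + |a 0| by field_simp; ring] at h
        exact lt_of_lt_of_le (mul_pos (Real.exp_pos _) h1) h

theorem Kiter_pos_of_antitone (N : ℕ) (a : Fin N → ℝ) (f : ℝ → ℝ) (hf : Measurable f)
    (hf0 : ∀ y, 0 ≤ f y) (M : ℝ) (hM : ∀ y, |f y| ≤ M) (hanti : Antitone f)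
    (hz : ∃ z, 0 < f z) (ha : ∃ i, a i < 0) (y : ℝ) : 0 < Kiter N a f y := by
  have hrefl : Kiter N a f y = Kiter N (fun i => -a i) (fun z => f (-z)) (-y) := by
    have := Kiter_reflect N a (fun z => f (-z)) y
    simp only [neg_neg] at this
    exact this
  rw [hrefl]
  refine Kiter_pos_of_monotone N _ _ (hf.comp measurable_neg) (fun y => hf0 _) M
    (fun y => hM _) (fun x y hxy => hanti (neg_le_neg hxy)) ?_ ?_ _
  · obtain ⟨z, hz⟩ := hz
    exact ⟨-z, by simpa using hz⟩
  · obtain ⟨i, hi⟩ := ha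
    exact ⟨i, by linarith⟩


/-! ### Interface statements for `F := Kiter N a H`, `H` written out verbatim -/

theorem H_eq : H = Set.indicator (Set.Ioi (0:ℝ)) (1 : ℝ → ℝ) := rfl

/-- B1 -/
theorem B1_measurable (N : ℕ) (a : Fin N → ℝ) :
    Measurable (Kiter N a (Set.indicator (Set.Ioi (0:ℝ)) (1 : ℝ → ℝ))) :=
  Kiter_measurable N a H H_measurable

/-- B1 -/
theorem B1_monotone (N : ℕ) (a : Fin N → ℝ) :
    Monotone (Kiter N a (Set.indicator (Set.Ioi (0:ℝ)) (1 : ℝ → ℝ))) :=
  Kiter_monotone N a H H_measurable 1 H_abs_le H_monotone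

/-- B1 -/
theorem B1_nonneg (N : ℕ) (a : Fin N → ℝ) (x : ℝ) :
    0 ≤ Kiter N a (Set.indicator (Set.Ioi (0:ℝ)) (1 : ℝ → ℝ)) x :=
  Kiter_nonneg N a H H_nonneg x

/-- B1 -/
theorem B1_le_one (N : ℕ) (a : Fin N → ℝ) (x : ℝ) :
    Kiter N a (Set.indicator (Set.Ioi (0:ℝ)) (1 : ℝ → ℝ)) x ≤ 1 :=
  Kiter_le_one N a H H_measurable H_nonneg H_le_one x

/-- B2: the four-point (log-concavity) inequality. -/
theorem B2_fourPoint (N : ℕ) (a : Fin N → ℝ) :
    ∀ x y h : ℝ, x ≤ y → 0 ≤ h →
      Kiter N a (Set.indicator (Set.Ioi (0:ℝ)) (1 : ℝ → ℝ)) x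
          * Kiter N a (Set.indicator (Set.Ioi (0:ℝ)) (1 : ℝ → ℝ)) (y + h)
        ≤ Kiter N a (Set.indicator (Set.Ioi (0:ℝ)) (1 : ℝ → ℝ)) (x + h)
          * Kiter N a (Set.indicator (Set.Ioi (0:ℝ)) (1 : ℝ → ℝ)) y :=
  Kiter_fourPoint N a H H_measurable 1 H_abs_le H_fourPoint

/-- B3 (continuity) -/
theorem B3_continuous (N : ℕ) (a : Fin N → ℝ) (ha : ∃ i, a i ≠ 0) :
    Continuous (Kiter N a (Set.indicator (Set.Ioi (0:ℝ)) (1 : ℝ → ℝ))) :=
  Kiter_continuous N a H H_measurable 1 H_abs_le ha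

/-- B3 (positivity) -/
theorem B3_pos (N : ℕ) (a : Fin N → ℝ) (ha : ∃ i, 0 < a i) (x : ℝ) :
    0 < Kiter N a (Set.indicator (Set.Ioi (0:ℝ)) (1 : ℝ → ℝ)) x :=
  Kiter_pos_of_monotone N a H H_measurable H_nonneg 1 H_abs_le H_monotone
    ⟨1, by rw [H_apply]; norm_num⟩ ha x

/-- B3 (strictly below one) -/
theorem B3_lt_one (N : ℕ) (a : Fin N → ℝ) (ha : ∃ i, a i < 0) (x : ℝ) :
    Kiter N a (Set.indicator (Set.Ioi (0:ℝ)) (1 : ℝ → ℝ)) x < 1 := by
  have h1 := Kiter_one_sub N a H H_measurable 1 H_abs_le x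
  have hanti : Antitone (fun z => 1 - H z) := fun u v huv => by
    have := H_monotone huv
    simp only
    linarith
  have h2 := Kiter_pos_of_antitone N a (fun z => 1 - H z) (measurable_const.sub H_measurable)
    (fun y => by linarith [H_le_one y]) 1
    (fun y => by
      rw [abs_of_nonneg (by linarith [H_le_one y])]
      linarith [H_nonneg y]) hanti ⟨0, by rw [H_apply]; norm_num⟩ ha x
  rw [h1] at h2
  have : Kiter N a H x < 1 := by linarith
  exact this


/-! ### Midpoint concavity + continuity ⇒ concavity; log-concavity of `F` -/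

theorem concaveOn_of_continuous_midpoint {φ : ℝ → ℝ} (hc : Continuous φ)
    (hmid : ∀ x y : ℝ, φ x + φ y ≤ 2 * φ ((x + y) / 2)) : ConcaveOn ℝ Set.univ φ := by
  refine ⟨convex_univ, ?_⟩
  intro x _ y _ a b ha hb hab
  simp only [smul_eq_mul]
  by_contra hcon
  have hcon := not_le.mp hcon
  set ψ : ℝ → ℝ := fun t => φ (x + t * (y - x)) - ((1 - t) * φ x + t * φ y) with hψ
  have hψc : Continuous ψ := by
    have h1 : Continuous (fun t : ℝ => φ (x + t * (y - x))) := hc.comp (by fun_prop)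
    have h2 : Continuous (fun t : ℝ => (1 - t) * φ x + t * φ y) := by fun_prop
    exact h1.sub h2
  have hψ0 : ψ 0 = 0 := by simp [hψ]
  have hψ1 : ψ 1 = 0 := by simp [hψ]
  have hψmid : ∀ s t : ℝ, ψ s + ψ t ≤ 2 * ψ ((s + t) / 2) := by
    intro s t
    have h := hmid (x + s * (y - x)) (x + t * (y - x))
    have e : (x + s * (y - x) + (x + t * (y - x))) / 2 = x + (s + t) / 2 * (y - x) := by ring
    rw [e] at h
    simp only [hψ]
    nlinarith [h]
  have hψb : ψ b < 0 := by
    have ha' : a = 1 - b := by linarith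
    simp only [hψ]
    have e : x + b * (y - x) = a * x + b * y := by rw [ha']; ring
    rw [e, ← ha']
    linarith
  obtain ⟨t₁, ht₁, hmin⟩ := isCompact_Icc.exists_isMinOn
    (Set.nonempty_Icc.2 (zero_le_one (α := ℝ))) hψc.continuousOn
  have hmin' : ∀ t ∈ Set.Icc (0:ℝ) 1, ψ t₁ ≤ ψ t := fun t ht => isMinOn_iff.mp hmin t ht
  have hbmem : b ∈ Set.Icc (0:ℝ) 1 := ⟨hb, by linarith⟩
  have hm : ψ t₁ < 0 := lt_of_le_of_lt (hmin' b hbmem) hψb
  set Z : Set ℝ := Set.Icc (0:ℝ) 1 ∩ ψ ⁻¹' {ψ t₁} with hZ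
  have hZc : IsCompact Z := isCompact_Icc.inter_right (isClosed_singleton.preimage hψc)
  have hZne : Z.Nonempty := ⟨t₁, ht₁, rfl⟩
  obtain ⟨t₀, ht₀Z, ht₀least⟩ := hZc.exists_isLeast hZne
  have ht₀mem : t₀ ∈ Set.Icc (0:ℝ) 1 := ht₀Z.1
  have hψt₀ : ψ t₀ = ψ t₁ := ht₀Z.2
  have ht₀pos : 0 < t₀ := by
    rcases eq_or_lt_of_le ht₀mem.1 with h | h
    · rw [← h, hψ0] at hψt₀; linarith
    · exact h
  have ht₀lt : t₀ < 1 := by
    rcases eq_or_lt_of_le ht₀mem.2 with h | h
    · rw [h, hψ1] at hψt₀; linarith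
    · exact h
  set δ := min t₀ (1 - t₀) with hδ
  have hδpos : 0 < δ := lt_min ht₀pos (by linarith)
  have hδ1 : δ ≤ t₀ := min_le_left _ _
  have hδ2 : δ ≤ 1 - t₀ := min_le_right _ _
  have hl : t₀ - δ ∈ Set.Icc (0:ℝ) 1 := ⟨by linarith, by linarith⟩
  have hr : t₀ + δ ∈ Set.Icc (0:ℝ) 1 := ⟨by linarith, by linarith⟩
  have h1 : ψ t₁ ≤ ψ (t₀ + δ) := hmin' _ hr
  have h2 : ψ t₁ < ψ (t₀ - δ) := by
    rcases eq_or_lt_of_le (hmin' _ hl) with h | h
    · have hmemZ : t₀ - δ ∈ Z := ⟨hl, h.symm⟩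
      have := ht₀least hmemZ
      linarith
    · exact h
  have h3 := hψmid (t₀ - δ) (t₀ + δ)
  rw [show (t₀ - δ + (t₀ + δ)) / 2 = t₀ by ring] at h3
  linarith

/-- B4: log-concavity of `F` (when some coefficient is positive, so that `F > 0`). -/
theorem B4_concaveOn_log (N : ℕ) (a : Fin N → ℝ) (ha : ∃ i, 0 < a i) :
    ConcaveOn ℝ Set.univ
      (fun x => Real.log (Kiter N a (Set.indicator (Set.Ioi (0:ℝ)) (1 : ℝ → ℝ)) x)) := by
  have hpos := B3_pos N a ha
  have hcont := B3_continuous N a (by obtain ⟨i, hi⟩ := ha; exact ⟨i, hi.ne'⟩)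
  apply concaveOn_of_continuous_midpoint
  · exact Real.continuousOn_log.comp_continuous hcont (fun x => (hpos x).ne')
  · intro x y
    wlog hxy : x ≤ y generalizing x y
    · have h := this y x (le_of_not_ge hxy)
      rw [add_comm y x] at h
      linarith
    have h4 := B2_fourPoint N a x ((x + y) / 2) ((y - x) / 2) (by linarith) (by linarith)
    rw [show (x + y) / 2 + (y - x) / 2 = y by ring, show x + (y - x) / 2 = (x + y) / 2 by ring]
      at h4
    have h5 := Real.log_le_log (mul_pos (hpos x) (hpos y)) h4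
    rw [Real.log_mul (hpos x).ne' (hpos y).ne', Real.log_mul (hpos _).ne' (hpos _).ne'] at h5
    linarith


/-! ### Strict monotonicity -/

/-- A monotone, positive, log-concave function `F < 1` with `F - H` integrable is strictly
monotone. -/
theorem strictMono_of_concave_log {F : ℝ → ℝ} (hmono : Monotone F) (hpos : ∀ x, 0 < F x)
    (hlt : ∀ x, F x < 1) (hconc : ConcaveOn ℝ Set.univ (fun x => Real.log (F x)))
    (hint : Integrable (fun x => F x - Set.indicator (Set.Ioi (0:ℝ)) (1 : ℝ → ℝ) x)) :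
    StrictMono F := by
  intro x y hxy
  rcases eq_or_lt_of_le (hmono hxy.le) with heq | hlt'
  · exfalso
    -- F is constant on [y, ∞)
    have hconst : ∀ z, y < z → F z = F y := by
      intro z hz
      have hzx : z - x ≠ 0 := ne_of_gt (by linarith)
      have hθ1 : 0 ≤ (z - y) / (z - x) := div_nonneg (by linarith) (by linarith)
      have hθ2 : 0 ≤ (y - x) / (z - x) := div_nonneg (by linarith) (by linarith)
      have hθ : (z - y) / (z - x) + (y - x) / (z - x) = 1 := by
        field_simp; ring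
      have h := hconc.2 (Set.mem_univ x) (Set.mem_univ z) hθ1 hθ2 hθ
      simp only [smul_eq_mul] at h
      have e : (z - y) / (z - x) * x + (y - x) / (z - x) * z = y := by
        field_simp; ring
      rw [e, heq] at h
      -- (y-x)/(z-x) * log F z ≤ (1 - (z-y)/(z-x)) log F y = (y-x)/(z-x) log F y
      have hθ2pos : 0 < (y - x) / (z - x) := div_pos (by linarith) (by linarith)
      have h' : (y - x) / (z - x) * Real.log (F z) ≤ (y - x) / (z - x) * Real.log (F y) := by
        have : (z - y) / (z - x) = 1 - (y - x) / (z - x) := by linarith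
        rw [this] at h
        nlinarith [h]
      have h'' : Real.log (F z) ≤ Real.log (F y) := le_of_mul_le_mul_left h' hθ2pos
      have h3 : F z ≤ F y := (Real.log_le_log_iff (hpos z) (hpos y)).mp h''
      exact le_antisymm h3 (hmono hz.le)
    -- F - H = F y - 1 ≠ 0 on Ioi (max y 0): not integrable
    have hio : IntegrableOn (fun _ : ℝ => F y - 1) (Set.Ioi (max y 0)) := by
      refine (hint.integrableOn (s := Set.Ioi (max y 0))).congr_fun (fun z hz => ?_)
        measurableSet_Ioi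
      have hz' : max y 0 < z := hz
      have hzy : y < z := lt_of_le_of_lt (le_max_left _ _) hz'
      have hz0 : 0 < z := lt_of_le_of_lt (le_max_right _ _) hz'
      simp only [Set.indicator, Set.mem_Ioi, hz0, if_true, Pi.one_apply]
      rw [hconst z hzy]
    rw [integrableOn_const_iff] at hio
    rcases hio with h | h
    · have h0 : F y - 1 = 0 := enorm_eq_zero.mp h
      linarith [hlt y]
    · rw [Real.volume_Ioi] at h
      exact absurd h (lt_irrefl _)
  · exact hlt'

/-- B3 (strict monotonicity), given the integrability part of B5. -/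
theorem B3_strictMono (N : ℕ) (a : Fin N → ℝ) (hpos : ∃ i, 0 < a i) (hneg : ∃ i, a i < 0)
    (hint : Integrable (fun x => Kiter N a (Set.indicator (Set.Ioi (0:ℝ)) (1 : ℝ → ℝ)) x
      - Set.indicator (Set.Ioi (0:ℝ)) (1 : ℝ → ℝ) x)) :
    StrictMono (Kiter N a (Set.indicator (Set.Ioi (0:ℝ)) (1 : ℝ → ℝ))) :=
  strictMono_of_concave_log (B1_monotone N a) (B3_pos N a hpos) (B3_lt_one N a hneg)
    (B4_concaveOn_log N a hpos) hint

end Crest.Agent.Helper66
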