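import Mathlib

/-!
# Row 211 (tetrahedron cylinder covers): pure real-algebra lemmas

`interface_contra` : the two tilted fans (around the edges `AB` and `CD`) cannot both miss a point
of the tetrahedron.
-/

namespace Crest.Agent.Helper66.Tetra

/-- The cap radius of the fan at tilt parameter `η` and tag `c`. -/
noncomputable def capR (η c : ℝ) : ℝ := 1/2 + η^2*(c^2/4 + c^4/4 + 1/200)

theorem capR_ge_half (η c : ℝ) : 1/2 ≤ capR η c := by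
  unfold capR
  have : 0 ≤ η^2*(c^2/4 + c^4/4 + 1/200) := by positivity
  linarith

theorem capR_pos (η c : ℝ) : 0 < capR η c := by
  have := capR_ge_half η c
  linarith

theorem abs_mul_le_one {u v : ℝ} (hu : |u| ≤ 1) (hv : |v| ≤ 1) : |u*v| ≤ 1 := by
  rw [abs_mul]
  calc |u| * |v| ≤ 1 * 1 := mul_le_mul hu hv (abs_nonneg _) (by norm_num)
    _ = 1 := by norm_num

theorem aux_br (η s k : ℝ) (hk : k^2 ≤ 9) : -(9/16)*η^2 ≤ s^2/4 + η*k*s/4 := by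
  nlinarith [sq_nonneg (s + η*k/2), mul_le_mul_of_nonneg_left hk (sq_nonneg η)]

theorem aux_eta {η : ℝ} (hη : 0 < η) (hη1 : η ≤ 1/2000) :
    η^2 ≤ 1/4000000 ∧ (1+η)*(1+2*η)/200 ≤ 1/100 - (9/16)*η^2 := by
  have h : η^2 ≤ 1/4000000 := by
    calc η^2 = η*η := sq η
      _ ≤ (1/2000)*(1/2000) := mul_le_mul hη1 hη1 hη.le (by norm_num)
      _ = 1/4000000 := by norm_num
  refine ⟨h, ?_⟩
  have e : (1+η)*(1+2*η)/200 = (1 + 3*η + 2*η^2)/200 := by ring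
  rw [e]; linarith

/-- Core of the interface argument, with all auxiliary quantities as free variables. -/
theorem interface_core {η Δ c c' x y ζ ρ ρ' e₁ e₂ a a' R R' : ℝ}
    (hη : 0 < η) (hη1 : η ≤ 1/2000) (hΔ : 0 ≤ Δ) (hΔη : Δ ≤ η/100)
    (hc : |c| ≤ 1) (hc' : |c'| ≤ 1)
    (ha : a = (c^2+1)/2) (ha' : a' = (c'^2+1)/2)
    (hρd : ρ = ζ - x*η*c) (hρd' : ρ' = 1 - ζ - y*η*c')
    (he₁ : e₁ = y - x*η*a - c*ρ) (he₂ : e₂ = -x - y*η*a' - c'*ρ')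
    (hR : R = 1/2 + η^2*(c^2/4 + c^4/4 + 1/200)) (hR' : R' = 1/2 + η^2*(c'^2/4 + c'^4/4 + 1/200))
    (hx : |x| ≤ 1) (hy : |y| ≤ 1)
    (habs1 : |e₁| ≤ Δ/2*ρ) (habs2 : |e₂| ≤ Δ/2*ρ')
    (hρ : R < ρ) (hρ' : R' < ρ') : False := by
  have hcsq : c^2 ≤ 1 := (sq_le_one_iff_abs_le_one c).mpr hc
  have hcsq' : c'^2 ≤ 1 := (sq_le_one_iff_abs_le_one c').mpr hc'
  have ha0 : 0 ≤ a := by rw [ha]; positivity
  have ha1 : a ≤ 1 := by rw [ha]; linarith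
  have ha0' : 0 ≤ a' := by rw [ha']; positivity
  have ha1' : a' ≤ 1 := by rw [ha']; linarith
  have hRh : 1/2 ≤ R := by
    rw [hR]
    have : 0 ≤ η^2*(c^2/4 + c^4/4 + 1/200) := by positivity
    linarith
  have hRh' : 1/2 ≤ R' := by
    rw [hR']
    have : 0 ≤ η^2*(c'^2/4 + c'^4/4 + 1/200) := by positivity
    linarith
  have hρpos : 0 < ρ := by linarith
  have hρpos' : 0 < ρ' := by linarith
  -- the sum of the two radii
  have hxc : |x*c| ≤ 1 := abs_mul_le_one hx hc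
  have hyc : |y*c'| ≤ 1 := abs_mul_le_one hy hc'
  have hsum : ρ + ρ' ≤ 1 + 2*η := by
    have h1 := mul_le_mul_of_nonneg_left (abs_le.mp hxc).1 hη.le
    have h2 := mul_le_mul_of_nonneg_left (abs_le.mp hyc).1 hη.le
    have : ρ + ρ' = 1 - η*(x*c) - η*(y*c') := by rw [hρd, hρd']; ring
    rw [this]; linarith
  -- the coefficients
  have hk1 : |c' - η*a'*c| ≤ 1 + η := by
    have h1 : |η*a'*c| ≤ η := by
      have : |a'*c| ≤ 1 := abs_mul_le_one (by rw [abs_of_nonneg ha0']; exact ha1') hc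
      rw [mul_assoc, abs_mul, abs_of_pos hη]
      calc η * |a'*c| ≤ η * 1 := mul_le_mul_of_nonneg_left this hη.le
        _ = η := mul_one η
    calc |c' - η*a'*c| ≤ |c'| + |η*a'*c| := abs_sub _ _
      _ ≤ 1 + η := by linarith
  have hk2 : |c + η*a*c'| ≤ 1 + η := by
    have h1 : |η*a*c'| ≤ η := by
      have : |a*c'| ≤ 1 := abs_mul_le_one (by rw [abs_of_nonneg ha0]; exact ha1) hc'
      rw [mul_assoc, abs_mul, abs_of_pos hη]
      calc η * |a*c'| ≤ η * 1 := mul_le_mul_of_nonneg_left this hη.le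
        _ = η := mul_one η
    calc |c + η*a*c'| ≤ |c| + |η*a*c'| := abs_add_le _ _
      _ ≤ 1 + η := by linarith
  have hEabs : |e₁*(c' - η*a'*c) - e₂*(c + η*a*c')| ≤ (1 + η) * (Δ/2*(1 + 2*η)) := by
    have h1 : |e₁*(c' - η*a'*c)| ≤ (Δ/2*ρ) * (1 + η) := by
      rw [abs_mul]; exact mul_le_mul habs1 hk1 (abs_nonneg _) (by positivity)
    have h2 : |e₂*(c + η*a*c')| ≤ (Δ/2*ρ') * (1 + η) := by
      rw [abs_mul]; exact mul_le_mul habs2 hk2 (abs_nonneg _) (by positivity)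
    have h3 : |e₁*(c' - η*a'*c) - e₂*(c + η*a*c')| ≤ |e₁*(c' - η*a'*c)| + |e₂*(c + η*a*c')| :=
      abs_sub _ _
    have h4 : (Δ/2*ρ) * (1 + η) + (Δ/2*ρ') * (1 + η) ≤ (1 + η) * (Δ/2*(1 + 2*η)) := by
      have h41 : Δ/2*(ρ + ρ') ≤ Δ/2*(1 + 2*η) := mul_le_mul_of_nonneg_left hsum (by positivity)
      have h42 := mul_le_mul_of_nonneg_left h41 (by linarith : (0:ℝ) ≤ 1 + η)
      have h43 : (Δ/2*ρ) * (1 + η) + (Δ/2*ρ') * (1 + η) = (1 + η) * (Δ/2*(ρ + ρ')) := by ring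
      rw [h43]; exact h42
    linarith
  have hkey : ρ*((1 + η^2*a*a') + η*c*c' - η^2*a'*c^2) + ρ'*((1 + η^2*a*a') - η*c*c' - η^2*a*c'^2)
      = (1 + η^2*a*a') - η*(e₁*(c' - η*a'*c) - e₂*(c + η*a*c')) := by
    rw [he₁, he₂, hρd, hρd', ha, ha']
    ring
  -- positivity of the coefficients
  have hcc : |c*c'| ≤ 1 := abs_mul_le_one hc hc'
  obtain ⟨hcc1, hcc2⟩ := abs_le.mp hcc
  obtain ⟨hη2, h8⟩ := aux_eta hη hη1
  have hD1 : 1 ≤ 1 + η^2*a*a' := by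
    have := mul_nonneg (mul_nonneg (sq_nonneg η) ha0) ha0'
    linarith
  have hac : a'*c^2 ≤ 1 := by
    calc a'*c^2 ≤ 1*1 := mul_le_mul ha1' hcsq (sq_nonneg c) (by norm_num)
      _ = 1 := by norm_num
  have hac' : a*c'^2 ≤ 1 := by
    calc a*c'^2 ≤ 1*1 := mul_le_mul ha1 hcsq' (sq_nonneg c') (by norm_num)
      _ = 1 := by norm_num
  have e1 : η*c*c' = η*(c*c') := by ring
  have hcc1η := mul_le_mul_of_nonneg_left hcc1 hη.le
  have hcc2η := mul_le_mul_of_nonneg_left hcc2 hη.le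
  have hα : 0 < (1 + η^2*a*a') + η*c*c' - η^2*a'*c^2 := by
    have h2 : η^2*a'*c^2 ≤ η^2 := by
      have := mul_le_mul_of_nonneg_left hac (sq_nonneg η)
      have e : η^2*a'*c^2 = η^2*(a'*c^2) := by ring
      rw [e]; linarith
    rw [e1]; linarith
  have hα' : 0 < (1 + η^2*a*a') - η*c*c' - η^2*a*c'^2 := by
    have h2 : η^2*a*c'^2 ≤ η^2 := by
      have := mul_le_mul_of_nonneg_left hac' (sq_nonneg η)
      have e : η^2*a*c'^2 = η^2*(a*c'^2) := by ring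
      rw [e]; linarith
    rw [e1]; linarith
  have hlow : R*((1 + η^2*a*a') + η*c*c' - η^2*a'*c^2) + R'*((1 + η^2*a*a') - η*c*c' - η^2*a*c'^2)
      < (1 + η^2*a*a') - η*(e₁*(c' - η*a'*c) - e₂*(c + η*a*c')) := by
    rw [← hkey]
    have := mul_lt_mul_of_pos_right hρ hα
    have := mul_lt_mul_of_pos_right hρ' hα'
    linarith
  have hident : R*((1 + η^2*a*a') + η*c*c' - η^2*a'*c^2) + R'*((1 + η^2*a*a') - η*c*c' - η^2*a*c'^2)
        - (1 + η^2*a*a')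
      = η^2*((c^2-c'^2)^2/4 + 1/100 + η*(c*c'*(1+c^2+c'^2))*(c^2-c'^2)/4
          + η^2*((c^2/4 + c^4/4 + 1/200)*a'*(1-c^2)/2 + (c'^2/4 + c'^4/4 + 1/200)*a*(1-c'^2)/2)) := by
    rw [hR, hR', ha, ha']
    ring
  -- lower bound of the bracket
  have hk3 : (c*c'*(1+c^2+c'^2))^2 ≤ 9 := by
    have h1 : |c*c'*(1+c^2+c'^2)| ≤ 3 := by
      rw [abs_mul]
      have : |1 + c^2 + c'^2| ≤ 3 := by
        rw [abs_le]; constructor <;> linarith [sq_nonneg c, sq_nonneg c']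
      calc |c*c'| * |1 + c^2 + c'^2| ≤ 1 * 3 := mul_le_mul hcc this (abs_nonneg _) (by norm_num)
        _ = 3 := by norm_num
    calc (c*c'*(1+c^2+c'^2))^2 ≤ 3^2 := sq_le_sq' (abs_le.mp h1).1 (abs_le.mp h1).2
      _ = 9 := by norm_num
  have hbr1 := aux_br η (c^2-c'^2) (c*c'*(1+c^2+c'^2)) hk3
  have hbr2 : 0 ≤ (c^2/4 + c^4/4 + 1/200)*a'*(1-c^2)/2 + (c'^2/4 + c'^4/4 + 1/200)*a*(1-c'^2)/2 := by
    have h1 : 0 ≤ (c^2/4 + c^4/4 + 1/200)*a'*(1-c^2) :=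
      mul_nonneg (mul_nonneg (by positivity) ha0') (by linarith)
    have h2 : 0 ≤ (c'^2/4 + c'^4/4 + 1/200)*a*(1-c'^2) :=
      mul_nonneg (mul_nonneg (by positivity) ha0) (by linarith)
    linarith
  have hbr : 1/100 - (9/16)*η^2 ≤ (c^2-c'^2)^2/4 + 1/100 + η*(c*c'*(1+c^2+c'^2))*(c^2-c'^2)/4
          + η^2*((c^2/4 + c^4/4 + 1/200)*a'*(1-c^2)/2 + (c'^2/4 + c'^4/4 + 1/200)*a*(1-c'^2)/2) := by
    have h4 := mul_nonneg (sq_nonneg η) hbr2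
    linarith
  have hmain : η^2*(1/100 - (9/16)*η^2) < -(η*(e₁*(c' - η*a'*c) - e₂*(c + η*a*c'))) := by
    have := mul_le_mul_of_nonneg_left hbr (sq_nonneg η)
    linarith
  have hEl := (abs_le.mp hEabs).1
  have h5 : -(η*(e₁*(c' - η*a'*c) - e₂*(c + η*a*c'))) ≤ η*((1 + η) * (Δ/2*(1 + 2*η))) := by
    have := mul_le_mul_of_nonneg_left hEl hη.le
    linarith
  have h6 : η*((1 + η) * (Δ/2*(1 + 2*η))) ≤ η*((1 + η) * (η/200*(1 + 2*η))) := by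
    apply mul_le_mul_of_nonneg_left _ hη.le
    apply mul_le_mul_of_nonneg_left _ (by positivity)
    apply mul_le_mul_of_nonneg_right _ (by positivity)
    linarith
  have h7 : η*((1 + η) * (η/200*(1 + 2*η))) = η^2*((1+η)*(1+2*η)/200) := by ring
  have h9 := mul_le_mul_of_nonneg_left h8 (sq_nonneg η)
  linarith

theorem interface_contra {η Δ c c' x y ζ Tl Th Tl' Th' : ℝ}
    (hη : 0 < η) (hη1 : η ≤ 1/2000) (hΔ : 0 ≤ Δ) (hΔη : Δ ≤ η/100)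
    (hc : |c| ≤ 1) (hc' : |c'| ≤ 1)
    (hTl : c - Δ/2 ≤ Tl) (hTh : Th ≤ c + Δ/2)
    (hTl' : c' - Δ/2 ≤ Tl') (hTh' : Th' ≤ c' + Δ/2)
    (hx : |x| ≤ 1 - ζ) (hy : |y| ≤ ζ)
    (h1 : Tl * (ζ - x*η*c) ≤ y - x*η*((c^2+1)/2))
    (h2 : y - x*η*((c^2+1)/2) ≤ Th * (ζ - x*η*c))
    (h3 : Tl' * (1 - ζ - y*η*c') ≤ -x - y*η*((c'^2+1)/2))
    (h4 : -x - y*η*((c'^2+1)/2) ≤ Th' * (1 - ζ - y*η*c'))
    (hρ : capR η c < ζ - x*η*c)
    (hρ' : capR η c' < 1 - ζ - y*η*c') : False := by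
  obtain ⟨hx1, hx2⟩ := abs_le.mp hx
  obtain ⟨hy1, hy2⟩ := abs_le.mp hy
  have hx' : |x| ≤ 1 := by linarith
  have hy' : |y| ≤ 1 := by linarith
  have hR := capR_ge_half η c
  have hR' := capR_ge_half η c'
  have hρpos : 0 ≤ ζ - x*η*c := by linarith
  have hρpos' : 0 ≤ 1 - ζ - y*η*c' := by linarith
  refine interface_core (ρ := ζ - x*η*c) (ρ' := 1 - ζ - y*η*c')
    (e₁ := y - x*η*((c^2+1)/2) - c*(ζ - x*η*c))
    (e₂ := -x - y*η*((c'^2+1)/2) - c'*(1 - ζ - y*η*c'))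
    hη hη1 hΔ hΔη hc hc' rfl rfl rfl rfl rfl rfl rfl rfl hx' hy' ?_ ?_ hρ hρ'
  · rw [abs_le]
    have e1 := mul_le_mul_of_nonneg_right hTl hρpos
    have e2 := mul_le_mul_of_nonneg_right hTh hρpos
    constructor <;> linarith
  · rw [abs_le]
    have e1 := mul_le_mul_of_nonneg_right hTl' hρpos'
    have e2 := mul_le_mul_of_nonneg_right hTh' hρpos'
    constructor <;> linarith

/-! ### Area estimates -/

theorem inv_sqrt_le {s : ℝ} (hs : 0 ≤ s) : 1 / Real.sqrt (1 + s) ≤ 1 - s/2 + 3*s^2/8 := by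
  have hp : 0 < 1 - s/2 + 3*s^2/8 := by nlinarith [sq_nonneg (s - 2/3)]
  have h1 : 1 ≤ (1 - s/2 + 3*s^2/8)^2 * (1 + s) := by
    have e : (1 - s/2 + 3*s^2/8)^2 * (1 + s) = 1 + s^3*(5/8 - 15/64*s + 9/64*s^2) := by ring
    rw [e]
    have h2 : 0 ≤ 5/8 - 15/64*s + 9/64*s^2 := by nlinarith [sq_nonneg (s - 5/6)]
    have h3 : 0 ≤ s^3 := by positivity
    have := mul_nonneg h3 h2
    linarith
  have hpos : 0 < Real.sqrt (1 + s) := Real.sqrt_pos.mpr (by linarith)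
  rw [div_le_iff₀ hpos]
  have h4 : Real.sqrt ((1 - s/2 + 3*s^2/8)^2 * (1 + s)) = (1 - s/2 + 3*s^2/8) * Real.sqrt (1 + s) := by
    rw [Real.sqrt_mul (sq_nonneg _), Real.sqrt_sq hp.le]
  rw [← h4]
  calc (1:ℝ) = Real.sqrt 1 := Real.sqrt_one.symm
    _ ≤ _ := Real.sqrt_le_sqrt h1

theorem poly_bound {E r q : ℝ} (hE0 : 0 ≤ E) (hE : E ≤ 1/4000000) (hr0 : 0 ≤ r) (hr : r ≤ 51/100)
    (hq0 : 0 ≤ q) (hq : q ≤ 3) :
    (1/2 + E*r)^2/2 * (1 - E*q/2 + 3*(E*q)^2/8) ≤ 1/8 + E*(r/2 - q/16) + E^2 := by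
  have hexp : (1/2 + E*r)^2/2 * (1 - E*q/2 + 3*(E*q)^2/8)
      = 1/8 + E*(r/2 - q/16) + E^2*(r^2/2 - r*q/4 + 3*q^2/64)
        + E^3*(-(r^2*q)/4 + 3*r*q^2/16) + E^4*(3*r^2*q^2/16) := by ring
  rw [hexp]
  have hrq : 0 ≤ r*q := mul_nonneg hr0 hq0
  have hr2 : r^2 ≤ (51/100)^2 := pow_le_pow_left₀ hr0 hr 2
  have hq2 : q^2 ≤ 3^2 := pow_le_pow_left₀ hq0 hq 2
  have hB2 : r^2/2 - r*q/4 + 3*q^2/64 ≤ 3/5 := by nlinarith
  have hrq2 : r*q^2 ≤ (51/100)*3^2 := mul_le_mul hr hq2 (sq_nonneg q) (by norm_num)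
  have hr2q : 0 ≤ r^2*q := mul_nonneg (sq_nonneg r) hq0
  have hB3 : -(r^2*q)/4 + 3*r*q^2/16 ≤ 1 := by nlinarith
  have hr2q2 : r^2*q^2 ≤ (51/100)^2*3^2 := mul_le_mul hr2 hq2 (sq_nonneg q) (by norm_num)
  have hB4 : 3*r^2*q^2/16 ≤ 1 := by nlinarith
  have hE2 : 0 ≤ E^2 := sq_nonneg E
  have hE3 : E^3 ≤ E^2 * (1/4000000) := by
    have : E^3 = E^2*E := by ring
    rw [this]; exact mul_le_mul_of_nonneg_left hE hE2
  have hE3' : 0 ≤ E^3 := by positivity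
  have hE4 : E^4 ≤ E^2 * (1/4000000) := by
    have e : E^4 = E^2*(E*E) := by ring
    rw [e]
    apply mul_le_mul_of_nonneg_left _ hE2
    calc E*E ≤ (1/4000000)*1 := mul_le_mul hE (by linarith) hE0 (by norm_num)
      _ = 1/4000000 := by norm_num
  have hE4' : 0 ≤ E^4 := by positivity
  have t2 := mul_le_mul_of_nonneg_left hB2 hE2
  have t3 := mul_le_mul_of_nonneg_left hB3 hE3'
  have t4 := mul_le_mul_of_nonneg_left hB4 hE4'
  nlinarith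

/-- The density bound: base area of one thin triangle per unit angular width. -/
theorem density_bound {η c : ℝ} (hη : 0 < η) (hη1 : η ≤ 1/2000) (hc : |c| ≤ 1) :
    capR η c ^ 2 / (2 * Real.sqrt (1 + η^2*(((c^2+1)/2)^2 + 2*c^2)))
      ≤ 1/8 + η^2*((7*c^4 - 2*c^2 - 1)/64 + 1/400) + η^4 := by
  have hcsq : c^2 ≤ 1 := (sq_le_one_iff_abs_le_one c).mpr hc
  have hc4 : c^4 ≤ 1 := by
    have : c^4 = c^2*c^2 := by ring
    rw [this]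
    calc c^2*c^2 ≤ 1*1 := mul_le_mul hcsq hcsq (sq_nonneg c) (by norm_num)
      _ = 1 := by norm_num
  obtain ⟨hη2, -⟩ := aux_eta hη hη1
  set q := ((c^2+1)/2)^2 + 2*c^2 with hq
  have hq0 : 0 ≤ q := by rw [hq]; positivity
  have hq3 : q ≤ 3 := by
    have : q = (c^4 + 10*c^2 + 1)/4 := by rw [hq]; ring
    rw [this]; linarith
  have hs : 0 ≤ η^2*q := mul_nonneg (sq_nonneg η) hq0
  have h1 := inv_sqrt_le hs
  have hsq : 0 < Real.sqrt (1 + η^2*q) := Real.sqrt_pos.mpr (by linarith)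
  have h2 : capR η c ^ 2 / (2 * Real.sqrt (1 + η^2*q)) = capR η c ^ 2 / 2 * (1 / Real.sqrt (1 + η^2*q)) := by
    field_simp
  rw [h2]
  have h3 : capR η c ^ 2 / 2 * (1 / Real.sqrt (1 + η^2*q))
      ≤ capR η c ^ 2 / 2 * (1 - η^2*q/2 + 3*(η^2*q)^2/8) :=
    mul_le_mul_of_nonneg_left h1 (by positivity)
  have hr0 : 0 ≤ c^2/4 + c^4/4 + 1/200 := by positivity
  have hr1 : c^2/4 + c^4/4 + 1/200 ≤ 51/100 := by linarith
  have h4 := poly_bound (sq_nonneg η) hη2 hr0 hr1 hq0 hq3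
  have h5 : capR η c ^ 2 / 2 * (1 - η^2*q/2 + 3*(η^2*q)^2/8)
      = (1/2 + η^2*(c^2/4 + c^4/4 + 1/200))^2/2 * (1 - η^2*q/2 + 3*(η^2*q)^2/8) := by
    unfold capR; ring
  have h6 : 1/8 + η^2*((c^2/4 + c^4/4 + 1/200)/2 - q/16) + (η^2)^2
      = 1/8 + η^2*((7*c^4 - 2*c^2 - 1)/64 + 1/400) + η^4 := by
    rw [hq]; ring
  linarith

/-- The trapezoid rule for `φ(t) = (7 t⁴ - 2 t² - 1)/64` on one interval. -/
theorem trapezoid_step {u v : ℝ} (hu : |u| ≤ 1) (hv : |v| ≤ 1) (huv : u ≤ v) :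
    (v - u)/2 * ((7*u^4 - 2*u^2 - 1)/64 + (7*v^4 - 2*v^2 - 1)/64)
      ≤ (7*v^5/5 - 2*v^3/3 - v)/64 - (7*u^5/5 - 2*u^3/3 - u)/64 + 7/64*(v - u)^3 := by
  have hid : (v - u)/2 * ((7*u^4 - 2*u^2 - 1)/64 + (7*v^4 - 2*v^2 - 1)/64)
      - ((7*v^5/5 - 2*v^3/3 - v)/64 - (7*u^5/5 - 2*u^3/3 - u)/64)
      = (v - u)^3 * (7*(3*u^2 + 4*u*v + 3*v^2)/10 - 1/3)/64 := by ring
  have husq : u^2 ≤ 1 := (sq_le_one_iff_abs_le_one u).mpr hu
  have hvsq : v^2 ≤ 1 := (sq_le_one_iff_abs_le_one v).mpr hv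
  have huv1 : |u*v| ≤ 1 := abs_mul_le_one hu hv
  have h1 : 3*u^2 + 4*u*v + 3*v^2 ≤ 10 := by
    have := (abs_le.mp huv1).2
    have e : 4*u*v = 4*(u*v) := by ring
    rw [e]; linarith
  have h2 : 0 ≤ (v - u)^3 := by
    have : 0 ≤ v - u := by linarith
    positivity
  have h3 : (v - u)^3 * (7*(3*u^2 + 4*u*v + 3*v^2)/10 - 1/3)/64 ≤ 7/64*(v - u)^3 := by
    have h4 : 7*(3*u^2 + 4*u*v + 3*v^2)/10 - 1/3 ≤ 7 := by linarith
    have := mul_le_mul_of_nonneg_left h4 h2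
    linarith
  linarith

end Crest.Agent.Helper66.Tetra
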