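import Mathlib
import Crest.Agent.Helper66.TetraAlg

/-!
# Row 211: geometry of sheared triangular cylinders in `ℝ³` (measure-free part)
-/

namespace Crest.Agent.Helper66.Tetra

/-- Euclidean 3-space. -/
abbrev E3 := EuclideanSpace ℝ (Fin 3)

theorem inner3 (v w : E3) : inner ℝ v w = v 0 * w 0 + v 1 * w 1 + v 2 * w 2 := by
  simp [PiLp.inner_apply, Fin.sum_univ_three]
  ring

theorem normsq3 (v : E3) : ‖v‖^2 = v 0 ^2 + v 1 ^2 + v 2 ^2 := by
  rw [EuclideanSpace.norm_sq_eq]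
  simp [Fin.sum_univ_three]

/-- Gram ("Heron") area of the triangle `p q r`. -/
noncomputable def triArea (p q r : E3) : ℝ :=
  Real.sqrt (‖q - p‖^2 * ‖r - p‖^2 - (inner ℝ (q - p) (r - p))^2) / 2

/-- Orthogonal projection onto the plane `d^⊥`. -/
noncomputable def projP (d v : E3) : E3 := v - (inner ℝ v d / ‖d‖^2) • d

/-- The `3 × 3` determinant with rows `d v w`. -/
def det3 (d v w : E3) : ℝ :=
  d 0 * (v 1 * w 2 - v 2 * w 1) - d 1 * (v 0 * w 2 - v 2 * w 0) + d 2 * (v 0 * w 1 - v 1 * w 0)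

theorem projP_apply (d v : E3) (i : Fin 3) :
    projP d v i = v i - (v 0 * d 0 + v 1 * d 1 + v 2 * d 2) / (d 0 ^2 + d 1 ^2 + d 2 ^2) * d i := by
  unfold projP
  simp only [PiLp.sub_apply, PiLp.smul_apply, smul_eq_mul]
  rw [inner3, normsq3]

theorem projP_sub (d v w : E3) : projP d v - projP d w = projP d (v - w) := by
  unfold projP
  rw [inner_sub_left, sub_div, sub_smul]
  abel

theorem projP_zero (d : E3) : projP d 0 = 0 := by
  unfold projP; simp

theorem projP_smul (d v : E3) (t : ℝ) : projP d (t • v) = t • projP d v := by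
  unfold projP
  rw [inner_smul_left, smul_sub, smul_smul]
  simp [mul_div_assoc]

theorem projP_add (d v w : E3) : projP d (v + w) = projP d v + projP d w := by
  unfold projP
  rw [inner_add_left, add_div, add_smul]
  abel

theorem isLinearMap_projP (d : E3) : IsLinearMap ℝ (projP d) :=
  ⟨projP_add d, fun t v => projP_smul d v t⟩

theorem inner_projP_self (d v : E3) (hd : d ≠ 0) : inner ℝ (projP d v) d = 0 := by
  unfold projP
  rw [inner_sub_left, inner_smul_left, real_inner_self_eq_norm_sq]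
  have : ‖d‖^2 ≠ 0 := by positivity
  simp only [conj_trivial]
  field_simp
  ring

theorem normsq_pos {d : E3} (hd : d ≠ 0) : 0 < d 0 ^2 + d 1 ^2 + d 2 ^2 := by
  rw [← normsq3]; positivity

theorem gram_projP (d v w : E3) (hd : d ≠ 0) :
    ‖projP d v‖^2 * ‖projP d w‖^2 - (inner ℝ (projP d v) (projP d w))^2
      = (det3 d v w)^2 / ‖d‖^2 := by
  have hS := normsq_pos hd
  rw [inner3, normsq3, normsq3, normsq3]
  simp only [projP_apply, det3]
  field_simp
  ring

theorem triArea_projP (d A B C : E3) (hd : d ≠ 0) :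
    triArea (projP d A) (projP d B) (projP d C) = |det3 d (B - A) (C - A)| / (2 * ‖d‖) := by
  unfold triArea
  rw [projP_sub, projP_sub, gram_projP d _ _ hd]
  have hn : 0 < ‖d‖ := norm_pos_iff.mpr hd
  rw [Real.sqrt_div (sq_nonneg _), Real.sqrt_sq_eq_abs, Real.sqrt_sq hn.le]
  field_simp

/-! ### Convexity helpers -/

theorem convex_three {s : Set E3} (hs : Convex ℝ s) {A B C : E3} (hA : A ∈ s) (hB : B ∈ s)
    (hC : C ∈ s) {w0 w1 w2 : ℝ} (h0 : 0 ≤ w0) (h1 : 0 ≤ w1) (h2 : 0 ≤ w2)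
    (hsum : w0 + w1 + w2 = 1) : w0 • A + w1 • B + w2 • C ∈ s := by
  have h := hs.sum_mem (t := (Finset.univ : Finset (Fin 3))) (w := ![w0, w1, w2])
    (z := ![A, B, C])
    (by intro i _; fin_cases i <;> simp [h0, h1, h2])
    (by simp [Fin.sum_univ_three, hsum])
    (by intro i _; fin_cases i <;> simp [hA, hB, hC])
  simpa [Fin.sum_univ_three] using h

theorem mem_hull_three {A B C : E3} {w0 w1 w2 : ℝ} (h0 : 0 ≤ w0) (h1 : 0 ≤ w1) (h2 : 0 ≤ w2)
    (hsum : w0 + w1 + w2 = 1) : w0 • A + w1 • B + w2 • C ∈ convexHull ℝ ({A, B, C} : Set E3) :=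
  convex_three (convex_convexHull ℝ _) (subset_convexHull ℝ _ (by simp))
    (subset_convexHull ℝ _ (by simp)) (subset_convexHull ℝ _ (by simp)) h0 h1 h2 hsum

/-- A point of the planar fan with apex `A`, between the rays of slopes `Tlo`, `Thi`, below the cap
`R`, lies in the triangle. -/
theorem fan_mem {A f₁ f₂ : E3} {R Tlo Thi ρ y' : ℝ} (hR : 0 < R) (hT : Tlo < Thi)
    (hρ : ρ ≤ R) (h1 : Tlo * ρ ≤ y') (h2 : y' ≤ Thi * ρ) :
    A + y' • f₁ + ρ • f₂ ∈
      convexHull ℝ ({A, A + R • (Tlo • f₁ + f₂), A + R • (Thi • f₁ + f₂)} : Set E3) := by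
  have hT' : 0 < Thi - Tlo := by linarith
  have hρ0 : 0 ≤ ρ := by
    have : Tlo * ρ ≤ Thi * ρ := le_trans h1 h2
    have h3 : 0 ≤ (Thi - Tlo) * ρ := by linarith
    exact nonneg_of_mul_nonneg_right h3 hT'
  have hden : 0 < R * (Thi - Tlo) := mul_pos hR hT'
  have key : A + y' • f₁ + ρ • f₂ = (1 - ρ / R) • A
      + ((Thi * ρ - y') / (R * (Thi - Tlo))) • (A + R • (Tlo • f₁ + f₂))
      + ((y' - Tlo * ρ) / (R * (Thi - Tlo))) • (A + R • (Thi • f₁ + f₂)) := by
    have hR' : R ≠ 0 := hR.ne'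
    have hT'' : Thi - Tlo ≠ 0 := hT'.ne'
    have e1 : (1 - ρ / R) + (Thi * ρ - y') / (R * (Thi - Tlo)) + (y' - Tlo * ρ) / (R * (Thi - Tlo)) = 1 := by
      field_simp; ring
    have e2 : (Thi * ρ - y') / (R * (Thi - Tlo)) * (R * Tlo) + (y' - Tlo * ρ) / (R * (Thi - Tlo)) * (R * Thi) = y' := by
      field_simp; ring
    have e3 : (Thi * ρ - y') / (R * (Thi - Tlo)) * R + (y' - Tlo * ρ) / (R * (Thi - Tlo)) * R = ρ := by
      field_simp; ring
    simp only [smul_add, smul_smul]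
    calc A + y' • f₁ + ρ • f₂ = (1:ℝ) • A + y' • f₁ + ρ • f₂ := by rw [one_smul]
      _ = ((1 - ρ / R) + (Thi * ρ - y') / (R * (Thi - Tlo)) + (y' - Tlo * ρ) / (R * (Thi - Tlo))) • A
          + ((Thi * ρ - y') / (R * (Thi - Tlo)) * (R * Tlo) + (y' - Tlo * ρ) / (R * (Thi - Tlo)) * (R * Thi)) • f₁
          + ((Thi * ρ - y') / (R * (Thi - Tlo)) * R + (y' - Tlo * ρ) / (R * (Thi - Tlo)) * R) • f₂ := by
        rw [e1, e2, e3]
      _ = _ := by
        simp only [add_smul]
        abel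
  rw [key]
  apply mem_hull_three
  · have : ρ / R ≤ 1 := (div_le_one hR).mpr hρ
    linarith
  · exact div_nonneg (by linarith) hden.le
  · exact div_nonneg (by linarith) hden.le
  · field_simp; ring

/-- A point on a line through a planar triangle lies in the orthogonal cylinder over the projected
triangle. -/
theorem mem_cyl_of_sheared {d A B C v P : E3} {s : ℝ} (hd : d ≠ 0)
    (hv : v ∈ convexHull ℝ ({A, B, C} : Set E3)) (hP : P = v + s • d) :
    ∃ b ∈ convexHull ℝ ({projP d A, projP d B, projP d C} : Set E3), ∃ t : ℝ,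
      P = b + t • ((1 / ‖d‖) • d) := by
  have hn : 0 < ‖d‖ := norm_pos_iff.mpr hd
  refine ⟨projP d v, ?_, (inner ℝ v d / ‖d‖^2) * ‖d‖ + s * ‖d‖, ?_⟩
  · have h := (isLinearMap_projP d).image_convexHull ({A, B, C} : Set E3)
    have h2 : projP d '' ({A, B, C} : Set E3) = {projP d A, projP d B, projP d C} := by
      simp [Set.image_insert_eq]
    rw [h2] at h
    rw [← h]
    exact Set.mem_image_of_mem _ hv
  · rw [hP]
    unfold projP
    rw [smul_smul]
    have e : ((inner ℝ v d / ‖d‖^2) * ‖d‖ + s * ‖d‖) * (1 / ‖d‖) = inner ℝ v d / ‖d‖^2 + s := by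
      field_simp
    rw [e, add_smul]
    abel

end Crest.Agent.Helper66.Tetra
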