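import Mathlib
import Crest.Agent.Helper66.TetraGeom

/-!
# Row 211: the explicit cover of the regular tetrahedron by `2 (n+1)` thin triangular cylinders
-/

open Finset

namespace Crest.Agent.Helper66.Tetra

/-! ### Tags, sector edges -/

/-- tags `c_i = -1 + 2 i / n`. -/
noncomputable def tag (n i : ℕ) : ℝ := -1 + (i : ℝ) * (2 / (n : ℝ))
noncomputable def wl (n i : ℕ) : ℝ := if i = 0 then 0 else 1 / (n : ℝ)
noncomputable def wr (n i : ℕ) : ℝ := if i < n then 1 / (n : ℝ) else 0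
/-- left edge of sector `i`. -/
noncomputable def Tl (n i : ℕ) : ℝ := tag n i - wl n i
/-- right edge of sector `i`. -/
noncomputable def Th (n i : ℕ) : ℝ := tag n i + wr n i

theorem tag_zero (n : ℕ) : tag n 0 = -1 := by simp [tag]

theorem tag_last {n : ℕ} (hn : 0 < n) : tag n n = 1 := by
  have : (n : ℝ) ≠ 0 := by positivity
  unfold tag; field_simp; ring

theorem tag_succ (n i : ℕ) : tag n (i+1) = tag n i + 2 / (n : ℝ) := by
  unfold tag; push_cast; ring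

theorem abs_tag_le {n i : ℕ} (hn : 0 < n) (hi : i ≤ n) : |tag n i| ≤ 1 := by
  have hn' : (0:ℝ) < n := by exact_mod_cast hn
  have hi' : (i:ℝ) ≤ n := by exact_mod_cast hi
  have h0 : 0 ≤ (i:ℝ) * (2 / (n:ℝ)) := by positivity
  have h1 : (i:ℝ) * (2 / (n:ℝ)) ≤ 2 := by
    rw [mul_div_assoc', div_le_iff₀ hn']; linarith
  unfold tag
  rw [abs_le]; constructor <;> linarith

theorem wl_nonneg (n i : ℕ) : 0 ≤ wl n i := by
  unfold wl; split_ifs <;> positivity

theorem wl_le (n i : ℕ) : wl n i ≤ 1 / (n : ℝ) := by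
  unfold wl; split_ifs
  · positivity
  · exact le_rfl

theorem wr_nonneg (n i : ℕ) : 0 ≤ wr n i := by
  unfold wr; split_ifs <;> positivity

theorem wr_le (n i : ℕ) : wr n i ≤ 1 / (n : ℝ) := by
  unfold wr; split_ifs
  · exact le_rfl
  · positivity

theorem Tl_zero (n : ℕ) : Tl n 0 = -1 := by simp [Tl, wl, tag_zero]

theorem Th_last {n : ℕ} (hn : 0 < n) : Th n n = 1 := by simp [Th, wr, tag_last hn]

theorem Th_eq_Tl_succ {n i : ℕ} (hi : i < n) : Th n i = Tl n (i+1) := by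
  simp only [Th, Tl, wr, wl, if_pos hi, tag_succ]
  simp
  ring

theorem width_pos {n i : ℕ} (hn : 0 < n) (hi : i ≤ n) : Tl n i < Th n i := by
  have hn' : (0:ℝ) < 1 / (n:ℝ) := by positivity
  unfold Tl Th
  by_cases h0 : i = 0
  · subst h0
    have : wr n 0 = 1 / (n:ℝ) := by simp [wr, hn]
    have : wl n 0 = 0 := by simp [wl]
    linarith
  · have : wl n i = 1 / (n:ℝ) := by simp [wl, h0]
    have := wr_nonneg n i
    linarith

/-- Discrete intermediate value argument along the chain of sector edges. -/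
theorem chain_exists {n : ℕ} (hn : 0 < n) (η x y ζ : ℝ) (hy : |y| ≤ ζ) :
    ∃ i, i ≤ n ∧ Tl n i * (ζ - x*η*tag n i) ≤ y - x*η*((tag n i^2+1)/2) ∧
      y - x*η*((tag n i^2+1)/2) ≤ Th n i * (ζ - x*η*tag n i) := by
  obtain ⟨hy1, hy2⟩ := abs_le.mp hy
  have step : ∀ i, i < n → (y - x*η*((tag n i^2+1)/2)) - Th n i * (ζ - x*η*tag n i)
      = (y - x*η*((tag n (i+1)^2+1)/2)) - Tl n (i+1) * (ζ - x*η*tag n (i+1)) := by
    intro i hi
    rw [← Th_eq_Tl_succ hi, tag_succ]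
    simp only [Th, wr, if_pos hi]
    ring
  have key : ∀ m, m ≤ n → y - x*η*((tag n m^2+1)/2) ≤ Th n m * (ζ - x*η*tag n m) →
      ∃ i, i ≤ m ∧ Tl n i * (ζ - x*η*tag n i) ≤ y - x*η*((tag n i^2+1)/2) ∧
        y - x*η*((tag n i^2+1)/2) ≤ Th n i * (ζ - x*η*tag n i) := by
    intro m
    induction m with
    | zero =>
      intro _ h
      refine ⟨0, le_rfl, ?_, h⟩
      rw [Tl_zero, tag_zero]
      nlinarith
    | succ m ih =>
      intro hm h
      by_cases hlo : Tl n (m+1) * (ζ - x*η*tag n (m+1)) ≤ y - x*η*((tag n (m+1)^2+1)/2)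
      · exact ⟨m+1, le_rfl, hlo, h⟩
      · have hm' : m < n := hm
        have hs := step m hm'
        have : y - x*η*((tag n m^2+1)/2) ≤ Th n m * (ζ - x*η*tag n m) := by
          push Not at hlo
          linarith
        obtain ⟨i, hi, h1, h2⟩ := ih (by omega) this
        exact ⟨i, by omega, h1, h2⟩
  apply key n le_rfl
  rw [Th_last hn, tag_last hn]
  nlinarith

/-! ### Sums over the sectors -/

theorem sum_weights (n : ℕ) (g : ℝ → ℝ) :
    ∑ i ∈ range (n+1), (Th n i - Tl n i) * g (tag n i)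
      = ∑ k ∈ range n, 1 / (n:ℝ) * (g (tag n k) + g (tag n (k+1))) := by
  have e : ∀ i, (Th n i - Tl n i) * g (tag n i) = wr n i * g (tag n i) + wl n i * g (tag n i) := by
    intro i; unfold Th Tl; ring
  simp only [e]
  rw [sum_add_distrib, sum_range_succ, sum_range_succ' (fun i => wl n i * g (tag n i))]
  have h1 : wr n n = 0 := by simp [wr]
  have h2 : wl n 0 = 0 := by simp [wl]
  rw [h1, h2, zero_mul, zero_mul, add_zero, add_zero, ← sum_add_distrib]
  apply sum_congr rfl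
  intro k hk
  have hk' : k < n := mem_range.mp hk
  have h3 : wr n k = 1 / (n:ℝ) := by simp [wr, hk']
  have h4 : wl n (k+1) = 1 / (n:ℝ) := by simp [wl]
  rw [h3, h4]; ring

theorem sum_one {n : ℕ} (hn : 0 < n) : ∑ i ∈ range (n+1), (Th n i - Tl n i) = 2 := by
  have h := sum_weights n (fun _ => (1:ℝ))
  simp only [mul_one] at h
  rw [h]
  have hn' : (n:ℝ) ≠ 0 := by positivity
  simp only [sum_const, card_range, nsmul_eq_mul]
  field_simp
  norm_num

theorem sum_phi_le {n : ℕ} (hn : 0 < n) :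
    ∑ i ∈ range (n+1), (Th n i - Tl n i) * ((7*(tag n i)^4 - 2*(tag n i)^2 - 1)/64)
      ≤ -1/120 + 7 / (8 * (n:ℝ)^2) := by
  have hn' : (0:ℝ) < n := by exact_mod_cast hn
  rw [sum_weights n (fun t => (7*t^4 - 2*t^2 - 1)/64)]
  have hstep : ∀ k ∈ range n, 1 / (n:ℝ) * ((7*(tag n k)^4 - 2*(tag n k)^2 - 1)/64
        + (7*(tag n (k+1))^4 - 2*(tag n (k+1))^2 - 1)/64)
      ≤ ((7*(tag n (k+1))^5/5 - 2*(tag n (k+1))^3/3 - tag n (k+1))/64
          - (7*(tag n k)^5/5 - 2*(tag n k)^3/3 - tag n k)/64) + 7/64*(2/(n:ℝ))^3 := by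
    intro k hk
    have hk' : k < n := mem_range.mp hk
    have h := trapezoid_step (abs_tag_le hn hk'.le) (abs_tag_le hn (Nat.succ_le_of_lt hk'))
      (by rw [tag_succ]; have : 0 ≤ 2 / (n:ℝ) := by positivity
          linarith)
    have e : tag n (k+1) - tag n k = 2 / (n:ℝ) := by rw [tag_succ]; ring
    rw [e] at h
    have e2 : (2 / (n:ℝ)) / 2 = 1 / (n:ℝ) := by ring
    rw [e2] at h
    exact h
  refine le_trans (sum_le_sum hstep) ?_
  rw [sum_add_distrib, sum_range_sub (fun k => (7*(tag n k)^5/5 - 2*(tag n k)^3/3 - tag n k)/64),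
    tag_last hn, tag_zero]
  simp only [sum_const, card_range, nsmul_eq_mul]
  have : (n:ℝ) * (7/64*(2/(n:ℝ))^3) = 7 / (8 * (n:ℝ)^2) := by
    field_simp; ring
  rw [this]
  norm_num

/-- Total (normalised) base area of one family of sectors. -/
theorem family_area_le {η : ℝ} (hη : 0 < η) (hη1 : η ≤ 1/2000) {n : ℕ} (hn : 0 < n) :
    ∑ i ∈ range (n+1), (Th n i - Tl n i) *
        (capR η (tag n i) ^ 2 / (2 * Real.sqrt (1 + η^2*((((tag n i)^2+1)/2)^2 + 2*(tag n i)^2))))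
      ≤ 1/4 + η^2/200 + 2*η^4 + η^2*(-1/120 + 7 / (8 * (n:ℝ)^2)) := by
  have h1 : ∀ i ∈ range (n+1), (Th n i - Tl n i) *
        (capR η (tag n i) ^ 2 / (2 * Real.sqrt (1 + η^2*((((tag n i)^2+1)/2)^2 + 2*(tag n i)^2))))
      ≤ (Th n i - Tl n i) * (1/8 + η^2/400 + η^4)
        + η^2 * ((Th n i - Tl n i) * ((7*(tag n i)^4 - 2*(tag n i)^2 - 1)/64)) := by
    intro i hi
    have hi' : i ≤ n := Nat.lt_succ_iff.mp (mem_range.mp hi)
    have hw : 0 ≤ Th n i - Tl n i := by have := width_pos hn hi'; linarith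
    have hd := density_bound hη hη1 (abs_tag_le hn hi')
    have := mul_le_mul_of_nonneg_left hd hw
    calc _ ≤ (Th n i - Tl n i) * (1/8 + η^2*((7*(tag n i)^4 - 2*(tag n i)^2 - 1)/64 + 1/400) + η^4) := this
      _ = _ := by ring
  refine le_trans (sum_le_sum h1) ?_
  rw [sum_add_distrib, ← sum_mul, ← mul_sum, sum_one hn]
  have h2 := mul_le_mul_of_nonneg_left (sum_phi_le hn) (sq_nonneg η)
  linarith

/-! ### The tetrahedron -/

/-- The regular tetrahedron of row 211. -/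
noncomputable def Ktet : Set E3 :=
  convexHull ℝ {!₂[1, 0, 0], !₂[-1, 0, 0], !₂[0, 1, Real.sqrt 2], !₂[0, -1, Real.sqrt 2]}

theorem sqrt2_pos : (0:ℝ) < Real.sqrt 2 := Real.sqrt_pos.mpr (by norm_num)

theorem sqrt2_sq : Real.sqrt 2 ^ 2 = 2 := Real.sq_sqrt (by norm_num)

theorem Ktet_coords {P : E3} (hP : P ∈ Ktet) :
    |P 0| ≤ 1 - P 2 / Real.sqrt 2 ∧ |P 1| ≤ P 2 / Real.sqrt 2 := by
  have hs := sqrt2_pos
  have hconv : Convex ℝ {P : E3 | |P 0| ≤ 1 - P 2 / Real.sqrt 2 ∧ |P 1| ≤ P 2 / Real.sqrt 2} := by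
    intro P hP Q hQ a b ha hb hab
    obtain ⟨hP1, hP2⟩ := hP
    obtain ⟨hQ1, hQ2⟩ := hQ
    rw [abs_le] at hP1 hP2 hQ1 hQ2
    simp only [Set.mem_ofPred_eq, PiLp.add_apply, PiLp.smul_apply, smul_eq_mul]
    have e : (a * P 2 + b * Q 2) / Real.sqrt 2 = a * (P 2 / Real.sqrt 2) + b * (Q 2 / Real.sqrt 2) := by
      ring
    rw [e, abs_le, abs_le]
    have hb' : b = 1 - a := by linarith
    subst hb'
    refine ⟨⟨?_, ?_⟩, ⟨?_, ?_⟩⟩ <;>
      nlinarith [mul_le_mul_of_nonneg_left hP1.1 ha, mul_le_mul_of_nonneg_left hP1.2 ha,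
        mul_le_mul_of_nonneg_left hP2.1 ha, mul_le_mul_of_nonneg_left hP2.2 ha,
        mul_le_mul_of_nonneg_left hQ1.1 hb, mul_le_mul_of_nonneg_left hQ1.2 hb,
        mul_le_mul_of_nonneg_left hQ2.1 hb, mul_le_mul_of_nonneg_left hQ2.2 hb]
  have hsub : ({!₂[1, 0, 0], !₂[-1, 0, 0], !₂[0, 1, Real.sqrt 2], !₂[0, -1, Real.sqrt 2]} : Set E3)
      ⊆ {P : E3 | |P 0| ≤ 1 - P 2 / Real.sqrt 2 ∧ |P 1| ≤ P 2 / Real.sqrt 2} := by
    intro P hP
    simp only [Set.mem_insert_iff, Set.mem_singleton_iff] at hP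
    have h1 : Real.sqrt 2 / Real.sqrt 2 = 1 := div_self hs.ne'
    rcases hP with rfl | rfl | rfl | rfl <;> simp
  exact convexHull_min hsub hconv hP

/-! ### The two families of sheared triangles -/

noncomputable def dir1 (η c : ℝ) : E3 := !₂[1, η*((c^2+1)/2), Real.sqrt 2*η*c]
noncomputable def dir2 (η c : ℝ) : E3 := !₂[-(η*((c^2+1)/2)), 1, -(Real.sqrt 2*η*c)]
noncomputable def apex2 : E3 := !₂[0, 0, Real.sqrt 2]
noncomputable def f1a : E3 := !₂[0, 1, 0]
noncomputable def f2a : E3 := !₂[0, 0, Real.sqrt 2]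
noncomputable def f1b : E3 := !₂[-1, 0, 0]
noncomputable def f2b : E3 := !₂[0, 0, -Real.sqrt 2]

theorem dir1_ne (η c : ℝ) : dir1 η c ≠ 0 := by
  intro h
  have := congrArg (fun v : E3 => v 0) h
  simp [dir1] at this

theorem dir2_ne (η c : ℝ) : dir2 η c ≠ 0 := by
  intro h
  have := congrArg (fun v : E3 => v 1) h
  simp [dir2] at this

theorem norm_dir1 (η c : ℝ) :
    ‖dir1 η c‖ = Real.sqrt (1 + η^2*(((c^2+1)/2)^2 + 2*c^2)) := by
  rw [← Real.sqrt_sq (norm_nonneg (dir1 η c)), normsq3]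
  congr 1
  simp [dir1]
  have := sqrt2_sq
  ring_nf
  rw [this]; ring

theorem norm_dir2 (η c : ℝ) :
    ‖dir2 η c‖ = Real.sqrt (1 + η^2*(((c^2+1)/2)^2 + 2*c^2)) := by
  rw [← Real.sqrt_sq (norm_nonneg (dir2 η c)), normsq3]
  congr 1
  simp [dir2]
  have := sqrt2_sq
  ring_nf
  rw [this]; ring

theorem det_fam1 (η c R T T' : ℝ) :
    det3 (dir1 η c) (R • (T • f1a + f2a)) (R • (T' • f1a + f2a)) = Real.sqrt 2 * R^2 * (T - T') := by
  simp [det3, dir1, f1a, f2a]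
  ring

theorem det_fam2 (η c R T T' : ℝ) :
    det3 (dir2 η c) (R • (T • f1b + f2b)) (R • (T' • f1b + f2b)) = Real.sqrt 2 * R^2 * (T' - T) := by
  simp [det3, dir2, f1b, f2b]
  ring

/-! ### Sector data -/

noncomputable def u1 (η : ℝ) (n i : ℕ) : E3 := (1 / ‖dir1 η (tag n i)‖) • dir1 η (tag n i)
noncomputable def p1 (η : ℝ) (n i : ℕ) : E3 := projP (dir1 η (tag n i)) 0
noncomputable def q1 (η : ℝ) (n i : ℕ) : E3 :=
  projP (dir1 η (tag n i)) (0 + capR η (tag n i) • (Tl n i • f1a + f2a))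
noncomputable def r1 (η : ℝ) (n i : ℕ) : E3 :=
  projP (dir1 η (tag n i)) (0 + capR η (tag n i) • (Th n i • f1a + f2a))

noncomputable def u2 (η : ℝ) (n i : ℕ) : E3 := (1 / ‖dir2 η (tag n i)‖) • dir2 η (tag n i)
noncomputable def p2 (η : ℝ) (n i : ℕ) : E3 := projP (dir2 η (tag n i)) apex2
noncomputable def q2 (η : ℝ) (n i : ℕ) : E3 :=
  projP (dir2 η (tag n i)) (apex2 + capR η (tag n i) • (Tl n i • f1b + f2b))
noncomputable def r2 (η : ℝ) (n i : ℕ) : E3 :=
  projP (dir2 η (tag n i)) (apex2 + capR η (tag n i) • (Th n i • f1b + f2b))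

theorem norm_unit {d : E3} (hd : d ≠ 0) : ‖(1 / ‖d‖) • d‖ = 1 := by
  have hn : 0 < ‖d‖ := norm_pos_iff.mpr hd
  rw [norm_smul, norm_div, norm_one, norm_norm, one_div, inv_mul_cancel₀ hn.ne']

theorem inner_projP_unit (d v : E3) (hd : d ≠ 0) : inner ℝ (projP d v) ((1 / ‖d‖) • d) = 0 := by
  rw [inner_smul_right, inner_projP_self d v hd, mul_zero]

theorem mem_fam1 {η : ℝ} {n i : ℕ} (hn : 0 < n) (hi : i ≤ n) {P : E3}
    (h1 : Tl n i * (P 2 / Real.sqrt 2 - P 0 * η * tag n i) ≤ P 1 - P 0 * η * ((tag n i^2+1)/2))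
    (h2 : P 1 - P 0 * η * ((tag n i^2+1)/2) ≤ Th n i * (P 2 / Real.sqrt 2 - P 0 * η * tag n i))
    (hρ : P 2 / Real.sqrt 2 - P 0 * η * tag n i ≤ capR η (tag n i)) :
    ∃ b ∈ convexHull ℝ ({p1 η n i, q1 η n i, r1 η n i} : Set E3), ∃ t : ℝ, P = b + t • u1 η n i := by
  have hs := sqrt2_pos
  refine mem_cyl_of_sheared (s := P 0) (dir1_ne η (tag n i))
    (fan_mem (capR_pos η (tag n i)) (width_pos hn hi) hρ h1 h2) ?_
  ext j
  fin_cases j
  · simp [dir1, f1a, f2a]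
  · simp [dir1, f1a, f2a]
    ring
  · simp [dir1, f1a, f2a]
    field_simp
    ring

theorem mem_fam2 {η : ℝ} {n j : ℕ} (hn : 0 < n) (hj : j ≤ n) {P : E3}
    (h1 : Tl n j * (1 - P 2 / Real.sqrt 2 - P 1 * η * tag n j) ≤ -P 0 - P 1 * η * ((tag n j^2+1)/2))
    (h2 : -P 0 - P 1 * η * ((tag n j^2+1)/2) ≤ Th n j * (1 - P 2 / Real.sqrt 2 - P 1 * η * tag n j))
    (hρ : 1 - P 2 / Real.sqrt 2 - P 1 * η * tag n j ≤ capR η (tag n j)) :
    ∃ b ∈ convexHull ℝ ({p2 η n j, q2 η n j, r2 η n j} : Set E3), ∃ t : ℝ, P = b + t • u2 η n j := by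
  have hs := sqrt2_pos
  refine mem_cyl_of_sheared (s := P 1) (dir2_ne η (tag n j))
    (fan_mem (capR_pos η (tag n j)) (width_pos hn hj) hρ h1 h2) ?_
  ext k
  fin_cases k
  · simp [dir2, f1b, f2b, apex2]
    ring
  · simp [dir2, f1b, f2b, apex2]
  · simp [dir2, f1b, f2b, apex2]
    field_simp
    ring

theorem area_fam1 {η : ℝ} {n i : ℕ} (hn : 0 < n) (hi : i ≤ n) :
    triArea (p1 η n i) (q1 η n i) (r1 η n i) = Real.sqrt 2 * ((Th n i - Tl n i) *
      (capR η (tag n i) ^ 2 / (2 * Real.sqrt (1 + η^2*((((tag n i)^2+1)/2)^2 + 2*(tag n i)^2))))) := by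
  unfold p1 q1 r1
  rw [triArea_projP _ _ _ _ (dir1_ne η (tag n i)), add_sub_cancel_left, add_sub_cancel_left,
    det_fam1, norm_dir1]
  have hw := width_pos hn hi
  have hs := sqrt2_pos
  have e : Real.sqrt 2 * capR η (tag n i) ^ 2 * (Tl n i - Th n i)
      = -(Real.sqrt 2 * capR η (tag n i) ^ 2 * (Th n i - Tl n i)) := by ring
  rw [e, abs_neg, abs_of_nonneg (by have := sq_nonneg (capR η (tag n i)); positivity)]
  ring

theorem area_fam2 {η : ℝ} {n i : ℕ} (hn : 0 < n) (hi : i ≤ n) :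
    triArea (p2 η n i) (q2 η n i) (r2 η n i) = Real.sqrt 2 * ((Th n i - Tl n i) *
      (capR η (tag n i) ^ 2 / (2 * Real.sqrt (1 + η^2*((((tag n i)^2+1)/2)^2 + 2*(tag n i)^2))))) := by
  unfold p2 q2 r2
  rw [triArea_projP _ _ _ _ (dir2_ne η (tag n i)), add_sub_cancel_left, add_sub_cancel_left,
    det_fam2, norm_dir2]
  have hw := width_pos hn hi
  have hs := sqrt2_pos
  rw [abs_of_nonneg (by have := sq_nonneg (capR η (tag n i)); positivity)]
  ring

/-- Every point of the tetrahedron lies in a cylinder of one of the two families. -/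
theorem cover_point {η : ℝ} {n : ℕ} (hη : 0 < η) (hη1 : η ≤ 1/2000) (hn : 0 < n)
    (hΔ : 2 / (n:ℝ) ≤ η / 100) {P : E3} (hP : P ∈ Ktet) :
    (∃ i, i ≤ n ∧ ∃ b ∈ convexHull ℝ ({p1 η n i, q1 η n i, r1 η n i} : Set E3), ∃ t : ℝ,
        P = b + t • u1 η n i) ∨
    (∃ j, j ≤ n ∧ ∃ b ∈ convexHull ℝ ({p2 η n j, q2 η n j, r2 η n j} : Set E3), ∃ t : ℝ,
        P = b + t • u2 η n j) := by
  obtain ⟨hx, hy⟩ := Ktet_coords hP
  have hn' : (0:ℝ) < n := by exact_mod_cast hn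
  obtain ⟨i, hi, hi1, hi2⟩ := chain_exists hn η (P 0) (P 1) (P 2 / Real.sqrt 2) hy
  have hx' : |-(P 0)| ≤ 1 - P 2 / Real.sqrt 2 := by rw [abs_neg]; exact hx
  obtain ⟨j, hj, hj1, hj2⟩ := chain_exists hn η (P 1) (-(P 0)) (1 - P 2 / Real.sqrt 2) hx'
  by_cases hρ : P 2 / Real.sqrt 2 - P 0 * η * tag n i ≤ capR η (tag n i)
  · exact Or.inl ⟨i, hi, mem_fam1 hn hi hi1 hi2 hρ⟩
  by_cases hρ' : 1 - P 2 / Real.sqrt 2 - P 1 * η * tag n j ≤ capR η (tag n j)
  · exact Or.inr ⟨j, hj, mem_fam2 hn hj hj1 hj2 hρ'⟩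
  exfalso
  push Not at hρ hρ'
  have hΔ0 : (0:ℝ) ≤ 2 / (n:ℝ) := by positivity
  have e : (2 / (n:ℝ)) / 2 = 1 / (n:ℝ) := by ring
  refine interface_contra (Δ := 2 / (n:ℝ)) (Tl := Tl n i) (Th := Th n i) (Tl' := Tl n j)
    (Th' := Th n j) hη hη1 hΔ0 hΔ (abs_tag_le hn hi) (abs_tag_le hn hj) ?_ ?_ ?_ ?_ hx hy
    hi1 hi2 hj1 hj2 hρ hρ'
  · rw [e]; unfold Tl; have := wl_le n i; linarith
  · rw [e]; unfold Th; have := wr_le n i; linarith
  · rw [e]; unfold Tl; have := wl_le n j; linarith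
  · rw [e]; unfold Th; have := wr_le n j; linarith

/-! ### The merged family, indexed by `ℕ` -/

noncomputable def famU (η : ℝ) (n k : ℕ) : E3 := if k < n+1 then u1 η n k else u2 η n (k - (n+1))
noncomputable def famP (η : ℝ) (n k : ℕ) : E3 := if k < n+1 then p1 η n k else p2 η n (k - (n+1))
noncomputable def famQ (η : ℝ) (n k : ℕ) : E3 := if k < n+1 then q1 η n k else q2 η n (k - (n+1))
noncomputable def famR (η : ℝ) (n k : ℕ) : E3 := if k < n+1 then r1 η n k else r2 η n (k - (n+1))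

theorem fam_unit (η : ℝ) (n k : ℕ) : ‖famU η n k‖ = 1 := by
  unfold famU; split_ifs
  · exact norm_unit (dir1_ne _ _)
  · exact norm_unit (dir2_ne _ _)

theorem fam_perp (η : ℝ) (n k : ℕ) :
    inner ℝ (famP η n k) (famU η n k) = 0 ∧ inner ℝ (famQ η n k) (famU η n k) = 0 ∧
      inner ℝ (famR η n k) (famU η n k) = 0 := by
  unfold famU famP famQ famR; split_ifs
  · exact ⟨inner_projP_unit _ _ (dir1_ne _ _), inner_projP_unit _ _ (dir1_ne _ _),
      inner_projP_unit _ _ (dir1_ne _ _)⟩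
  · exact ⟨inner_projP_unit _ _ (dir2_ne _ _), inner_projP_unit _ _ (dir2_ne _ _),
      inner_projP_unit _ _ (dir2_ne _ _)⟩

theorem fam_cover {η : ℝ} {n : ℕ} (hη : 0 < η) (hη1 : η ≤ 1/2000) (hn : 0 < n)
    (hΔ : 2 / (n:ℝ) ≤ η / 100) {P : E3} (hP : P ∈ Ktet) :
    ∃ k, k < 2*(n+1) ∧ ∃ b ∈ convexHull ℝ ({famP η n k, famQ η n k, famR η n k} : Set E3),
      ∃ t : ℝ, P = b + t • famU η n k := by
  rcases cover_point hη hη1 hn hΔ hP with ⟨i, hi, h⟩ | ⟨j, hj, h⟩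
  · have hi' : i < n+1 := Nat.lt_succ_of_le hi
    refine ⟨i, by omega, ?_⟩
    simp only [famU, famP, famQ, famR, if_pos hi']
    exact h
  · have hj' : ¬ (n+1+j < n+1) := by omega
    have e : n+1+j - (n+1) = j := by omega
    refine ⟨n+1+j, by omega, ?_⟩
    simp only [famU, famP, famQ, famR, if_neg hj', e]
    exact h

theorem fam_area {η : ℝ} {n : ℕ} (hη : 0 < η) (hη1 : η ≤ 1/2000) (hn : 0 < n) :
    ∑ k ∈ range (2*(n+1)), triArea (famP η n k) (famQ η n k) (famR η n k)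
      ≤ Real.sqrt 2 * (2*(1/4 + η^2/200 + 2*η^4 + η^2*(-1/120 + 7 / (8 * (n:ℝ)^2)))) := by
  rw [two_mul, sum_range_add]
  have h1 : ∑ k ∈ range (n+1), triArea (famP η n k) (famQ η n k) (famR η n k)
      = Real.sqrt 2 * ∑ i ∈ range (n+1), (Th n i - Tl n i) *
        (capR η (tag n i) ^ 2 / (2 * Real.sqrt (1 + η^2*((((tag n i)^2+1)/2)^2 + 2*(tag n i)^2)))) := by
    rw [mul_sum]
    apply sum_congr rfl
    intro k hk
    have hk' : k < n+1 := mem_range.mp hk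
    simp only [famP, famQ, famR, if_pos hk']
    exact area_fam1 hn (Nat.lt_succ_iff.mp hk')
  have h2 : ∑ k ∈ range (n+1), triArea (famP η n (n+1+k)) (famQ η n (n+1+k)) (famR η n (n+1+k))
      = Real.sqrt 2 * ∑ i ∈ range (n+1), (Th n i - Tl n i) *
        (capR η (tag n i) ^ 2 / (2 * Real.sqrt (1 + η^2*((((tag n i)^2+1)/2)^2 + 2*(tag n i)^2)))) := by
    rw [mul_sum]
    apply sum_congr rfl
    intro k hk
    have hk' : k < n+1 := mem_range.mp hk
    have hneg : ¬ (n+1+k < n+1) := by omega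
    have e : n+1+k - (n+1) = k := by omega
    simp only [famP, famQ, famR, if_neg hneg, e]
    exact area_fam2 hn (Nat.lt_succ_iff.mp hk')
  rw [h1, h2]
  have h3 := family_area_le hη hη1 hn
  have hs := sqrt2_pos
  have := mul_le_mul_of_nonneg_left h3 hs.le
  linarith

theorem famP_zero (η : ℝ) (n : ℕ) : famP η n 0 = 0 := by
  simp [famP, p1, projP_zero]

theorem fam_area_zero_pos {η : ℝ} {n : ℕ} (hn : 0 < n) :
    0 < triArea (famP η n 0) (famQ η n 0) (famR η n 0) := by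
  have h0 : (0:ℕ) < n+1 := by omega
  simp only [famP, famQ, famR, if_pos h0]
  rw [area_fam1 hn (Nat.zero_le n)]
  have hw := width_pos hn (Nat.zero_le n)
  have hs := sqrt2_pos
  have hR := capR_pos η (tag n 0)
  have hq : 0 < Real.sqrt (1 + η^2*((((tag n 0)^2+1)/2)^2 + 2*(tag n 0)^2)) :=
    Real.sqrt_pos.mpr (by positivity)
  have hw' : 0 < Th n 0 - Tl n 0 := by linarith
  positivity

/-! ### Inflating one triangle -/

theorem triArea_zero_smul (q r : E3) {lam : ℝ} (h : 0 ≤ lam) :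
    triArea 0 (lam • q) (lam • r) = lam^2 * triArea 0 q r := by
  unfold triArea
  simp only [sub_zero]
  rw [norm_smul, norm_smul, inner_smul_left, inner_smul_right, Real.norm_of_nonneg h]
  simp only [conj_trivial]
  have e : (lam * ‖q‖)^2 * (lam * ‖r‖)^2 - (lam * (lam * inner ℝ q r))^2
      = (lam^2)^2 * (‖q‖^2 * ‖r‖^2 - (inner ℝ q r)^2) := by ring
  rw [e, Real.sqrt_mul (sq_nonneg _), Real.sqrt_sq (sq_nonneg lam)]
  ring

theorem hull_zero_smul_subset (q r : E3) {lam : ℝ} (h : 1 ≤ lam) :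
    convexHull ℝ ({0, q, r} : Set E3) ⊆ convexHull ℝ ({0, lam • q, lam • r} : Set E3) := by
  have hl : 0 < lam := by linarith
  apply convexHull_min _ (convex_convexHull ℝ _)
  intro x hx
  simp only [Set.mem_insert_iff, Set.mem_singleton_iff] at hx
  have h1 : (1:ℝ) / lam ≤ 1 := by rw [div_le_one hl]; exact h
  rcases hx with rfl | rfl | rfl
  · exact subset_convexHull ℝ _ (by simp)
  · have := mem_hull_three (A := (0:E3)) (B := lam • x) (C := lam • r) (w0 := 1 - 1/lam)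
      (w1 := 1/lam) (w2 := 0) (by linarith) (by positivity) le_rfl (by ring)
    have e : (1 - 1/lam) • (0:E3) + (1/lam) • lam • x + (0:ℝ) • lam • r = x := by
      rw [smul_zero, zero_smul, smul_smul, one_div, inv_mul_cancel₀ hl.ne', one_smul]; simp
    rwa [e] at this
  · have := mem_hull_three (A := (0:E3)) (B := lam • q) (C := lam • x) (w0 := 1 - 1/lam)
      (w1 := 0) (w2 := 1/lam) (by linarith) le_rfl (by positivity) (by ring)
    have e : (1 - 1/lam) • (0:E3) + (0:ℝ) • lam • q + (1/lam) • lam • x = x := by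
      rw [smul_zero, zero_smul, smul_smul, one_div, inv_mul_cancel₀ hl.ne', one_smul]; simp
    rwa [e] at this

/-! ### The exact statement -/

/-- **Explicit cover** (measure-free form of S0325 part (2)): for `0 < ε ≤ 1/2000` the tetrahedron
is covered by `2⌈2/ε²⌉` triangular cylinders whose total Gram area is exactly
`√2 (1/2 - 13 ε²/6000)`. -/
theorem cover_exact (ε : ℝ) (hε : 0 < ε) (hε' : ε ≤ 1/2000) :
    ∃ u p q r : Fin (2 * ⌈2/ε^2⌉₊) → E3, (∀ i, ‖u i‖ = 1) ∧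
      (∀ i, inner ℝ (p i) (u i) = 0 ∧ inner ℝ (q i) (u i) = 0 ∧ inner ℝ (r i) (u i) = 0) ∧
      Ktet ⊆ ⋃ i, {x : E3 | ∃ b ∈ convexHull ℝ ({p i, q i, r i} : Set E3), ∃ t : ℝ,
        x = b + t • u i} ∧
      ∑ i, triArea (p i) (q i) (r i) = Real.sqrt 2 * (1/2 - 13/6000 * ε^2) := by
  have hε2 : ε^2 ≤ 1/4000000 := (aux_eta hε hε').1
  have hε2pos : 0 < ε^2 := by positivity
  have hbig : (8000000:ℝ) ≤ 2/ε^2 := by rw [le_div_iff₀ hε2pos]; linarith
  have hN : (2/ε^2 : ℝ) ≤ ⌈2/ε^2⌉₊ := Nat.le_ceil _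
  obtain ⟨n, hn⟩ : ∃ n, ⌈2/ε^2⌉₊ = n + 1 := by
    have : 0 < ⌈2/ε^2⌉₊ := Nat.ceil_pos.mpr (by positivity)
    exact ⟨⌈2/ε^2⌉₊ - 1, by omega⟩
  rw [hn]
  have hncast : (2/ε^2 : ℝ) ≤ (n:ℝ) + 1 := by rw [hn] at hN; exact_mod_cast hN
  have hn7 : (7999999:ℝ) ≤ n := by linarith
  have hn' : (0:ℝ) < n := by linarith
  have hnpos : 0 < n := by exact_mod_cast hn'
  have hΔ : 2 / (n:ℝ) ≤ ε / 100 := by
    rw [div_le_div_iff₀ hn' (by norm_num)]
    have h1 : 2/ε^2 - 1 ≤ (n:ℝ) := by linarith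
    have h2 : ε * (2/ε^2 - 1) ≤ ε * n := mul_le_mul_of_nonneg_left h1 hε.le
    have h3 : ε * (2/ε^2 - 1) = 2/ε - ε := by field_simp
    have h4 : (4000:ℝ) ≤ 2/ε := by rw [le_div_iff₀ hε]; linarith
    linarith
  -- the total area of the uninflated family
  set g : ℕ → ℝ := fun k => triArea (famP ε n k) (famQ ε n k) (famR ε n k) with hg
  have hS := fam_area hε hε' hnpos
  have hg0 : 0 < g 0 := fam_area_zero_pos hnpos
  have hs := sqrt2_pos
  have hT : ∑ k ∈ range (2*(n+1)), g k ≤ Real.sqrt 2 * (1/2 - 13/6000 * ε^2) := by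
    refine le_trans hS (mul_le_mul_of_nonneg_left ?_ hs.le)
    have h7 : 7 / (8 * (n:ℝ)^2) ≤ 1/1000 := by
      rw [div_le_div_iff₀ (by positivity) (by norm_num)]
      nlinarith
    have h8 := mul_le_mul_of_nonneg_left h7 (sq_nonneg ε)
    have h9 : ε^4 ≤ ε^2 * (1/4000000) := by
      have e : ε^4 = ε^2 * ε^2 := by ring
      rw [e]; exact mul_le_mul_of_nonneg_left hε2 (sq_nonneg ε)
    have e2 : ε^2*(-1/120 + 7 / (8 * (n:ℝ)^2)) = ε^2*(-1/120) + ε^2*(7 / (8 * (n:ℝ)^2)) := by ring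
    rw [e2]
    linarith
  -- the inflation factor
  set S := ∑ k ∈ range (2*(n+1)), g k with hSdef
  set T := Real.sqrt 2 * (1/2 - 13/6000 * ε^2) with hTdef
  have hratio : 0 ≤ (T - S) / g 0 := div_nonneg (by linarith) hg0.le
  set lam := Real.sqrt (1 + (T - S) / g 0) with hlam
  have hlam1 : 1 ≤ lam := by
    rw [hlam]
    calc (1:ℝ) = Real.sqrt 1 := Real.sqrt_one.symm
      _ ≤ _ := Real.sqrt_le_sqrt (by linarith)
  have hlam0 : 0 ≤ lam := by linarith
  have hlamsq : lam^2 = 1 + (T - S) / g 0 := by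
    rw [hlam]; exact Real.sq_sqrt (by linarith)
  have hP0 : famP ε n 0 = 0 := famP_zero ε n
  refine ⟨fun i => famU ε n i, fun i => famP ε n i,
    fun i => if (i:ℕ) = 0 then lam • famQ ε n 0 else famQ ε n i,
    fun i => if (i:ℕ) = 0 then lam • famR ε n 0 else famR ε n i, ?_, ?_, ?_, ?_⟩
  · intro i; exact fam_unit ε n i
  · intro i
    obtain ⟨h1, h2, h3⟩ := fam_perp ε n i
    by_cases h0 : (i:ℕ) = 0
    · simp only [h0, if_true]
      obtain ⟨k1, k2, k3⟩ := fam_perp ε n 0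
      refine ⟨k1, ?_, ?_⟩
      · rw [inner_smul_left, k2, mul_zero]
      · rw [inner_smul_left, k3, mul_zero]
    · simp only [h0, if_false]
      exact ⟨h1, h2, h3⟩
  · intro P hP
    obtain ⟨k, hk, b, hb, t, hPt⟩ := fam_cover hε hε' hnpos hΔ hP
    refine Set.mem_iUnion.mpr ⟨⟨k, hk⟩, b, ?_, t, hPt⟩
    by_cases h0 : k = 0
    · subst h0
      simp only [if_true]
      rw [hP0] at hb ⊢
      exact hull_zero_smul_subset _ _ hlam1 hb
    · simp only [h0, if_false]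
      exact hb
  · have hsum := Fin.sum_univ_eq_sum_range (fun k => triArea (famP ε n k)
      (if k = 0 then lam • famQ ε n 0 else famQ ε n k)
      (if k = 0 then lam • famR ε n 0 else famR ε n k)) (2*(n+1))
    rw [hsum]
    have hterm : ∀ k, triArea (famP ε n k) (if k = 0 then lam • famQ ε n 0 else famQ ε n k)
        (if k = 0 then lam • famR ε n 0 else famR ε n k)
        = g k + (if k = 0 then (lam^2 - 1) * g 0 else 0) := by
      intro k
      by_cases h0 : k = 0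
      · subst h0
        simp only [if_true, hg]
        rw [hP0, triArea_zero_smul _ _ hlam0]
        ring
      · simp only [h0, if_false, hg, add_zero]
    simp only [hterm]
    rw [sum_add_distrib, sum_ite_eq' (range (2*(n+1))) 0 (fun _ => (lam^2 - 1) * g 0)]
    have hmem : 0 ∈ range (2*(n+1)) := mem_range.mpr (by omega)
    rw [if_pos hmem, hlamsq]
    field_simp
    ring

end Crest.Agent.Helper66.Tetra
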